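import Mathlib

/-!
# Biquadratic fields `ℚ(√2, √q)` inside `ℝ`

Auxiliary number theory for the explicit counterexample sequence: for odd primes `q` the field
`ℚ(√2, √q) ⊂ ℝ` is a totally real quartic number field containing `√2`, and the absolute
discriminants of these fields tend to infinity (Hermite).
-/

open IntermediateField Polynomial

namespace Vale.Agent.H2

/-- The set `{a + b √p : a, b ∈ ℚ}` as an intermediate field of `ℝ / ℚ` (for `p` prime). -/
noncomputable def quadField (p : ℕ) (hp : p.Prime) : IntermediateField ℚ ℝ :=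
  Subfield.toIntermediateField
    { carrier := {z : ℝ | ∃ a b : ℚ, z = a + b * Real.sqrt p}
      mul_mem' := by
        rintro _ _ ⟨a, b, rfl⟩ ⟨c, d, rfl⟩
        refine ⟨a * c + b * d * p, a * d + b * c, ?_⟩
        have h : Real.sqrt p * Real.sqrt p = p := Real.mul_self_sqrt (Nat.cast_nonneg p)
        push_cast
        linear_combination (b * d : ℝ) * h
      one_mem' := ⟨1, 0, by simp⟩
      add_mem' := by
        rintro _ _ ⟨a, b, rfl⟩ ⟨c, d, rfl⟩
        exact ⟨a + c, b + d, by push_cast; ring⟩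
      zero_mem' := ⟨0, 0, by simp⟩
      neg_mem' := by
        rintro _ ⟨a, b, rfl⟩
        exact ⟨-a, -b, by push_cast; ring⟩
      inv_mem' := by
        rintro _ ⟨a, b, rfl⟩
        have h : Real.sqrt p * Real.sqrt p = p := Real.mul_self_sqrt (Nat.cast_nonneg p)
        by_cases hz : (a : ℝ) + b * Real.sqrt p = 0
        · rw [hz, inv_zero]
          exact ⟨0, 0, by simp⟩
        · have hN : (a : ℝ) ^ 2 - p * b ^ 2 ≠ 0 := by
            intro hN
            by_cases hb : b = 0
            · subst hb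
              simp only [Rat.cast_zero, zero_mul, add_zero] at hz
              simp at hN
              exact hz (by exact_mod_cast hN)
            · have hb' : (b : ℝ) ≠ 0 := by exact_mod_cast hb
              have h1 : ((a / b : ℚ) : ℝ) ^ 2 = p := by
                push_cast
                field_simp
                linarith
              have h2 : Real.sqrt p = |((a / b : ℚ) : ℝ)| := by
                rw [← h1, Real.sqrt_sq_eq_abs]
              have hirr := hp.irrational_sqrt
              rw [h2] at hirr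
              rcases abs_choice ((a / b : ℚ) : ℝ) with h3 | h3
              · rw [h3] at hirr
                exact hirr ⟨a / b, rfl⟩
              · rw [h3] at hirr
                exact hirr ⟨-(a / b), by push_cast; ring⟩
          refine ⟨a / (a ^ 2 - p * b ^ 2), -b / (a ^ 2 - p * b ^ 2), ?_⟩
          apply inv_eq_of_mul_eq_one_right
          push_cast
          set N : ℝ := (a : ℝ) ^ 2 - p * b ^ 2 with hNdef
          have h3 : ((a : ℝ) + b * Real.sqrt p) * (a / N + -b / N * Real.sqrt p)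
              = ((a : ℝ) ^ 2 - b ^ 2 * (Real.sqrt p * Real.sqrt p)) / N := by
            field_simp
            ring
          rw [h3, h, hNdef]
          rw [div_eq_one_iff_eq hN]
          ring }
    (fun r => ⟨r, 0, by simp⟩)

theorem mem_quadField (p : ℕ) (hp : p.Prime) (z : ℝ) :
    z ∈ quadField p hp ↔ ∃ a b : ℚ, z = a + b * Real.sqrt p := Iff.rfl


theorem not_isSquare_prime_mul_prime {p q : ℕ} (hp : p.Prime) (hq : q.Prime) (hpq : p ≠ q) :
    ¬ IsSquare (q * p) := by
  rintro ⟨k, hk⟩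
  have h1 : p ∣ k * k := by rw [← hk]; exact dvd_mul_left p q
  have h2 : p ∣ k := (hp.dvd_mul.mp h1).elim id id
  obtain ⟨m, rfl⟩ := h2
  have h3 : q = p * (m * m) := by
    have : q * p = (p * (m * m)) * p := by rw [hk]; ring
    exact Nat.eq_of_mul_eq_mul_right hp.pos this
  have h4 : p ∣ q := ⟨m * m, h3⟩
  exact hpq ((Nat.prime_dvd_prime_iff_eq hp hq).mp h4)

/-- Lemma Q: for distinct primes `p ≠ q`, `√q ∉ ℚ(√p)`. -/
theorem sqrt_not_mem_quadField {p q : ℕ} (hp : p.Prime) (hq : q.Prime) (hpq : p ≠ q) :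
    Real.sqrt q ∉ quadField p hp := by
  rintro ⟨a, b, h⟩
  have hs : Real.sqrt p * Real.sqrt p = p := Real.mul_self_sqrt (Nat.cast_nonneg p)
  have h1 : (q : ℝ) = (a : ℝ) ^ 2 + p * b ^ 2 + 2 * a * b * Real.sqrt p := by
    have h2 : Real.sqrt q ^ 2 = ((a : ℝ) + b * Real.sqrt p) ^ 2 := by rw [h]
    rw [Real.sq_sqrt (Nat.cast_nonneg q)] at h2
    rw [h2]
    linear_combination (b : ℝ) ^ 2 * hs
  by_cases hab : a * b = 0
  · rcases mul_eq_zero.mp hab with ha | hb
    · subst ha
      simp only [Rat.cast_zero, zero_add] at h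
      have h3 : Real.sqrt ((q * p : ℕ) : ℝ) = b * p := by
        rw [Nat.cast_mul, Real.sqrt_mul (Nat.cast_nonneg q), h, mul_assoc, hs]
      have hirr := irrational_sqrt_natCast_iff.mpr (not_isSquare_prime_mul_prime hp hq hpq)
      rw [h3] at hirr
      exact hirr ⟨b * p, by push_cast; ring⟩
    · subst hb
      simp only [Rat.cast_zero, zero_mul, add_zero] at h
      exact hq.irrational_sqrt ⟨a, h.symm⟩
  · have hab' : (a : ℝ) * b ≠ 0 := by exact_mod_cast hab
    have ha' : (a : ℝ) ≠ 0 := left_ne_zero_of_mul hab'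
    have hb' : (b : ℝ) ≠ 0 := right_ne_zero_of_mul hab'
    refine hp.irrational_sqrt ⟨(q - a ^ 2 - p * b ^ 2) / (2 * a * b), ?_⟩
    push_cast
    field_simp
    linarith

/-- `ℚ(√p) ≤ {a + b√p}`. -/
theorem adjoin_sqrt_le_quadField (p : ℕ) (hp : p.Prime) :
    ℚ⟮Real.sqrt p⟯ ≤ quadField p hp := by
  rw [adjoin_simple_le_iff]
  exact ⟨0, 1, by simp⟩

theorem sqrt_not_mem_adjoin_sqrt {p q : ℕ} (hp : p.Prime) (hq : q.Prime) (hpq : p ≠ q) :
    Real.sqrt q ∉ ℚ⟮Real.sqrt p⟯ :=
  fun h => sqrt_not_mem_quadField hp hq hpq (adjoin_sqrt_le_quadField p hp h)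

theorem isIntegral_sqrt (p : ℕ) : IsIntegral ℚ (Real.sqrt p) := by
  refine IsIntegral.of_pow (n := 2) (by norm_num) ?_
  rw [Real.sq_sqrt (Nat.cast_nonneg p)]
  exact isIntegral_algebraMap (x := (p : ℚ))

theorem natDegree_minpoly_sqrt (p : ℕ) (hp : p.Prime) :
    (minpoly ℚ (Real.sqrt p)).natDegree = 2 := by
  apply le_antisymm
  · have h1 : (X ^ 2 - C (p : ℚ) : ℚ[X]) ≠ 0 := X_pow_sub_C_ne_zero (by norm_num) _
    have h2 : aeval (Real.sqrt p) (X ^ 2 - C (p : ℚ) : ℚ[X]) = 0 := by
      simp [Real.sq_sqrt (Nat.cast_nonneg p)]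
    have h3 := minpoly.degree_le_of_ne_zero ℚ (Real.sqrt p) h1 h2
    rw [degree_X_pow_sub_C (by norm_num)] at h3
    exact natDegree_le_of_degree_le h3
  · rw [minpoly.two_le_natDegree_iff (isIntegral_sqrt p)]
    rintro ⟨r, hr⟩
    exact hp.irrational_sqrt ⟨r, hr⟩

theorem finrank_adjoin_sqrt (p : ℕ) (hp : p.Prime) :
    Module.finrank ℚ ℚ⟮Real.sqrt p⟯ = 2 := by
  rw [adjoin.finrank (isIntegral_sqrt p), natDegree_minpoly_sqrt p hp]

end Vale.Agent.H2
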