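import Vale.Agent.H2.Biquad

open IntermediateField Polynomial NumberField

namespace Vale.Agent.H2

/-- The biquadratic field `ℚ(√2, √q) ⊂ ℝ`. -/
noncomputable def bq (q : ℕ) : IntermediateField ℚ ℝ :=
  IntermediateField.adjoin ℚ {Real.sqrt (2 : ℕ), Real.sqrt q}

theorem bq_eq_sup (q : ℕ) : bq q = ℚ⟮Real.sqrt (2 : ℕ)⟯ ⊔ ℚ⟮Real.sqrt q⟯ := by
  rw [bq, ← Set.singleton_union, adjoin_union]

instance finiteDimensional_bq (q : ℕ) : FiniteDimensional ℚ (bq q) :=
  finiteDimensional_adjoin_pair (isIntegral_sqrt 2) (isIntegral_sqrt q)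

instance numberField_bq (q : ℕ) : NumberField (bq q) where

theorem sqrt_two_mem_bq (q : ℕ) : Real.sqrt (2 : ℕ) ∈ bq q :=
  subset_adjoin ℚ _ (Set.mem_insert _ _)

theorem sqrt_mem_bq (q : ℕ) : Real.sqrt q ∈ bq q :=
  subset_adjoin ℚ _ (Set.mem_insert_of_mem _ (Set.mem_singleton _))

theorem finrank_bq (q : ℕ) (hq : q.Prime) (hq2 : q ≠ 2) : Module.finrank ℚ (bq q) = 4 := by
  have hle : Module.finrank ℚ (bq q) ≤ 4 := by
    rw [bq_eq_sup]
    calc Module.finrank ℚ ↥(ℚ⟮Real.sqrt (2 : ℕ)⟯ ⊔ ℚ⟮Real.sqrt q⟯)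
        ≤ Module.finrank ℚ ℚ⟮Real.sqrt (2 : ℕ)⟯ * Module.finrank ℚ ℚ⟮Real.sqrt q⟯ :=
          finrank_sup_le _ _
      _ = 4 := by rw [finrank_adjoin_sqrt 2 Nat.prime_two, finrank_adjoin_sqrt q hq]
  have h2dvd : 2 ∣ Module.finrank ℚ (bq q) := by
    have hint : IsIntegral ℚ (⟨Real.sqrt (2 : ℕ), sqrt_two_mem_bq q⟩ : bq q) :=
      (IntermediateField.isIntegral_iff (S := bq q)).mpr (isIntegral_sqrt 2)
    have h := minpoly.degree_dvd hint
    have h' : minpoly ℚ (⟨Real.sqrt (2 : ℕ), sqrt_two_mem_bq q⟩ : bq q)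
        = minpoly ℚ (Real.sqrt (2 : ℕ)) :=
      IntermediateField.minpoly_eq (S := bq q) ⟨Real.sqrt (2 : ℕ), sqrt_two_mem_bq q⟩
    rw [h'] at h
    rwa [natDegree_minpoly_sqrt 2 Nat.prime_two] at h
  have hne : Module.finrank ℚ (bq q) ≠ 2 := by
    intro h
    have hle2 : ℚ⟮Real.sqrt (2 : ℕ)⟯ ≤ bq q := by
      rw [adjoin_simple_le_iff]
      exact sqrt_two_mem_bq q
    have heq : ℚ⟮Real.sqrt (2 : ℕ)⟯ = bq q :=
      eq_of_le_of_finrank_le hle2 (by rw [h, finrank_adjoin_sqrt 2 Nat.prime_two])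
    have hmem : Real.sqrt q ∈ ℚ⟮Real.sqrt (2 : ℕ)⟯ := heq ▸ sqrt_mem_bq q
    exact sqrt_not_mem_adjoin_sqrt Nat.prime_two hq (Ne.symm hq2) hmem
  have hpos : 0 < Module.finrank ℚ (bq q) := Module.finrank_pos
  omega

/-- A subfield of `ℝ` generated by square roots of natural numbers is totally real. -/
theorem isTotallyReal_adjoin_sqrt (S : Set ℝ) (hS : ∀ x ∈ S, ∃ m : ℕ, x ^ 2 = (m : ℝ)) :
    IsTotallyReal (IntermediateField.adjoin ℚ S) := by
  refine ⟨fun v => ?_⟩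
  rw [InfinitePlace.isReal_iff, ComplexEmbedding.isReal_iff]
  have key : (ComplexEmbedding.conjugate v.embedding).toRatAlgHom = v.embedding.toRatAlgHom := by
    apply adjoin_algHom_ext
    intro x hx
    obtain ⟨m, hm⟩ := hS x hx
    have hy2 : (⟨x, subset_adjoin ℚ _ hx⟩ : IntermediateField.adjoin ℚ S) ^ 2
        = (m : IntermediateField.adjoin ℚ S) := by
      apply Subtype.ext
      simp [hm]
    have h1 : v.embedding ⟨x, subset_adjoin ℚ _ hx⟩ ^ 2 = (m : ℂ) := by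
      rw [← map_pow, hy2, map_natCast]
    have h2 : (v.embedding ⟨x, subset_adjoin ℚ _ hx⟩).im = 0 := by
      set z := v.embedding ⟨x, subset_adjoin ℚ _ hx⟩ with hz
      have h3 : z.re * z.im + z.im * z.re = 0 := by
        have := congrArg Complex.im h1
        simpa [pow_two, Complex.mul_im] using this
      have h4 : z.re * z.re - z.im * z.im = m := by
        have := congrArg Complex.re h1
        simpa [pow_two, Complex.mul_re] using this
      by_contra him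
      have hre : z.re = 0 := by
        have : z.re * z.im = 0 := by linarith
        exact (mul_eq_zero.mp this).resolve_right him
      rw [hre] at h4
      have : (0 : ℝ) ≤ m := Nat.cast_nonneg m
      nlinarith [sq_pos_of_ne_zero him]
    change (starRingEnd ℂ) (v.embedding ⟨x, subset_adjoin ℚ _ hx⟩)
      = v.embedding ⟨x, subset_adjoin ℚ _ hx⟩
    exact Complex.conj_eq_iff_im.mpr h2
  ext z
  have := congrArg (fun f => f z) key
  simpa using this

/-- `ℚ(√2, √q)` is totally real. -/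
instance isTotallyReal_bq (q : ℕ) : IsTotallyReal (bq q) := by
  refine isTotallyReal_adjoin_sqrt _ ?_
  intro x hx
  rcases hx with rfl | rfl
  · exact ⟨2, Real.sq_sqrt (Nat.cast_nonneg _)⟩
  · exact ⟨q, Real.sq_sqrt (Nat.cast_nonneg _)⟩

end Vale.Agent.H2
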