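import Vale.Agent.H2.Biquad2

open IntermediateField Polynomial NumberField

namespace Vale.Agent.H2

theorem coe_mem_adjoin_simple_of_mem (F : IntermediateField ℚ ℝ) (α x : F) (hx : x ∈ ℚ⟮α⟯) :
    (x : ℝ) ∈ ℚ⟮(α : ℝ)⟯ := by
  let L : IntermediateField ℚ F :=
    Subfield.toIntermediateField ((ℚ⟮(α : ℝ)⟯).toSubfield.comap (algebraMap F ℝ)) (fun r => by
      rw [Subfield.mem_comap, eq_ratCast, map_ratCast]
      have := (ℚ⟮(α : ℝ)⟯).algebraMap_mem r
      rwa [eq_ratCast] at this)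
  have hle : ℚ⟮α⟯ ≤ L := adjoin_simple_le_iff.mpr (mem_adjoin_simple_self ℚ (α : ℝ))
  exact hle hx

/-- A number field inside `ℝ` contains `√q` for only finitely many primes `q`. -/
theorem finite_primes_sqrt_mem (F : IntermediateField ℚ ℝ) [FiniteDimensional ℚ F] :
    {q : ℕ | q.Prime ∧ Real.sqrt q ∈ F}.Finite := by
  have hfin : Finite (IntermediateField ℚ F) :=
    Field.finite_intermediateField_of_exists_primitive_element ℚ F
      (Field.exists_primitive_element ℚ F)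
  let h : {q : ℕ | q.Prime ∧ Real.sqrt q ∈ F} → IntermediateField ℚ F :=
    fun q => ℚ⟮(⟨Real.sqrt q, q.2.2⟩ : F)⟯
  have hinj : Function.Injective h := by
    rintro ⟨q, hq, hqF⟩ ⟨q', hq', hqF'⟩ heq
    by_contra hne
    have hne' : q ≠ q' := fun hh => hne (Subtype.ext hh)
    have hmem0 : (⟨Real.sqrt q', hqF'⟩ : F) ∈ ℚ⟮(⟨Real.sqrt q, hqF⟩ : F)⟯ := by
      have h1 : ℚ⟮(⟨Real.sqrt q, hqF⟩ : F)⟯ = ℚ⟮(⟨Real.sqrt q', hqF'⟩ : F)⟯ := heq
      rw [h1]
      exact mem_adjoin_simple_self ℚ _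
    have hmem : Real.sqrt q' ∈ ℚ⟮Real.sqrt q⟯ :=
      coe_mem_adjoin_simple_of_mem F ⟨Real.sqrt q, hqF⟩ ⟨Real.sqrt q', hqF'⟩ hmem0
    exact sqrt_not_mem_adjoin_sqrt hq hq' hne' hmem
  exact Set.finite_coe_iff.mp (Finite.of_injective h hinj)

/-- Hermite: only finitely many primes `q` have `|disc ℚ(√2, √q)| ≤ N`. -/
theorem finite_primes_discr_bq_le (N : ℕ) :
    {q : ℕ | q.Prime ∧ |discr (bq q)| ≤ N}.Finite := by
  have hT := NumberField.finite_of_discr_bdd ℝ N
  have hsub : {q : ℕ | q.Prime ∧ |discr (bq q)| ≤ N} ⊆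
      ⋃ K ∈ {K : { F : IntermediateField ℚ ℝ // FiniteDimensional ℚ F} |
          haveI : NumberField K := @NumberField.mk _ _ inferInstance K.prop
          |discr K| ≤ N },
        {q : ℕ | q.Prime ∧ Real.sqrt q ∈ K.1} := by
    rintro q ⟨hq, hd⟩
    simp only [Set.mem_iUnion]
    exact ⟨⟨bq q, finiteDimensional_bq q⟩, hd, hq, sqrt_mem_bq q⟩
  refine (hT.biUnion fun K _ => ?_).subset hsub
  have : FiniteDimensional ℚ K.1 := K.2
  exact finite_primes_sqrt_mem K.1

/-- The sequence of odd primes `3, 5, 7, ...`. -/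
noncomputable def oddPrime (i : ℕ) : ℕ := Nat.nth Nat.Prime (i + 1)

theorem oddPrime_prime (i : ℕ) : (oddPrime i).Prime := Nat.prime_nth_prime (i + 1)

theorem oddPrime_injective : Function.Injective oddPrime := by
  intro i j h
  have := (Nat.nth_strictMono Nat.infinite_setOfPred_prime).injective h
  omega

theorem oddPrime_ne_two (i : ℕ) : oddPrime i ≠ 2 := by
  have h0 : Nat.nth Nat.Prime 0 = 2 := Nat.nth_prime_zero_eq_two
  have h1 : Nat.nth Nat.Prime 0 < Nat.nth Nat.Prime (i + 1) :=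
    Nat.nth_strictMono Nat.infinite_setOfPred_prime (Nat.succ_pos i)
  rw [h0] at h1
  exact (ne_of_lt h1).symm

/-- The discriminants of `ℚ(√2, √q_i)` tend to infinity in absolute value. -/
theorem tendsto_abs_discr_bq :
    Filter.Tendsto (fun i => |discr (bq (oddPrime i))|) Filter.atTop Filter.atTop := by
  rw [← Nat.cofinite_eq_atTop, Filter.tendsto_atTop]
  intro b
  rw [Filter.eventually_cofinite]
  have hfin := finite_primes_discr_bq_le b.toNat
  have hsub : {i : ℕ | ¬ b ≤ |discr (bq (oddPrime i))|} ⊆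
      oddPrime ⁻¹' {q : ℕ | q.Prime ∧ |discr (bq q)| ≤ (b.toNat : ℤ)} := by
    intro i hi
    simp only [Set.mem_ofPred_eq, not_le] at hi
    refine ⟨oddPrime_prime i, ?_⟩
    have : b ≤ (b.toNat : ℤ) := Int.self_le_toNat b
    exact le_trans hi.le this
  exact (hfin.preimage oddPrime_injective.injOn).subset hsub

end Vale.Agent.H2
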