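import Mathlib

/-!
# A ramification criterion for the discriminant

If `x` is an algebraic integer of a number field `K` which is nilpotent modulo the prime `q`
(`q ∣ x ^ r`) but not zero modulo `q` (`¬ q ∣ x`), then `q` divides the discriminant of `K`.
Reason: the trace form of `𝓞 K / q` has `x` in its kernel, since nilpotent endomorphisms have
trace zero.
-/

open NumberField Module

namespace Vale.Agent.H2

theorem dvd_discr_of_nilpotent (K : Type*) [Field K] [NumberField K] (q : ℕ) (hq : q.Prime)
    (x : 𝓞 K) (r : ℕ) (h1 : ((q : ℕ) : 𝓞 K) ∣ x ^ r) (h2 : ¬ ((q : ℕ) : 𝓞 K) ∣ x) :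
    (q : ℤ) ∣ NumberField.discr K := by
  classical
  have : Fact q.Prime := ⟨hq⟩
  set b := RingOfIntegers.basis K with hb
  set φ : ℤ →+* ZMod q := Int.castRingHom (ZMod q) with hφ
  set T := Algebra.traceMatrix ℤ b with hT
  -- traces of multiples of `x` vanish modulo `q`
  have htr : ∀ y : 𝓞 K, φ (Algebra.trace ℤ (𝓞 K) (y * x)) = 0 := by
    intro y
    obtain ⟨z, hz⟩ := h1
    have hpow : (y * x) ^ r = ((q : ℕ) : 𝓞 K) * (y ^ r * z) := by
      rw [mul_pow, hz]; ring
    rw [Algebra.trace_eq_matrix_trace b]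
    set Mx := Algebra.leftMulMatrix b (y * x) with hMx
    have hM : Mx ^ r = ((q : ℕ) : Matrix _ _ ℤ) * Algebra.leftMulMatrix b (y ^ r * z) := by
      rw [hMx, ← map_pow, hpow, map_mul, map_natCast]
    have hnil : IsNilpotent (φ.mapMatrix Mx) := by
      refine ⟨r, ?_⟩
      rw [← map_pow, hM, map_mul, map_natCast]
      have : ((q : ℕ) : Matrix (Free.ChooseBasisIndex ℤ (𝓞 K)) (Free.ChooseBasisIndex ℤ (𝓞 K))
          (ZMod q)) = 0 := by
        ext i j
        rw [Matrix.natCast_apply]
        simp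
      rw [this, zero_mul]
    have h3 := Matrix.isNilpotent_trace_of_isNilpotent hnil
    have h4 : (φ.mapMatrix Mx).trace = φ Mx.trace := by
      simp [Matrix.trace, RingHom.mapMatrix_apply, Matrix.map_apply, Matrix.diag]
    rw [h4] at h3
    exact h3.eq_zero
  -- the coordinate vector of `x`
  set v : _ → ℤ := fun j => b.repr x j with hv
  have hsum : ∀ i, ∑ j, T i j * v j = Algebra.trace ℤ (𝓞 K) (b i * x) := by
    intro i
    have hx : x = ∑ j, v j • b j := (b.sum_repr x).symm
    conv_rhs => rw [hx, Finset.mul_sum, map_sum]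
    apply Finset.sum_congr rfl
    intro j _
    rw [hT, Algebra.traceMatrix_apply, Algebra.traceForm_apply, mul_smul_comm, map_smul,
      smul_eq_mul, mul_comm]
  have hmul : (φ.mapMatrix T).mulVec (fun j => φ (v j)) = 0 := by
    ext i
    rw [Matrix.mulVec, dotProduct, Pi.zero_apply]
    have : ∑ j, φ.mapMatrix T i j * φ (v j) = φ (∑ j, T i j * v j) := by
      rw [map_sum]
      apply Finset.sum_congr rfl
      intro j _
      rw [map_mul]
      rfl
    rw [this, hsum i, htr (b i)]
  have hv0 : (fun j => φ (v j)) ≠ 0 := by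
    intro h0
    apply h2
    have hdiv : ∀ j, (q : ℤ) ∣ v j := by
      intro j
      have := congrFun h0 j
      simp only [Pi.zero_apply, hφ, eq_intCast] at this
      exact (ZMod.intCast_zmod_eq_zero_iff_dvd _ q).mp this
    choose w hw using hdiv
    refine ⟨∑ j, w j • b j, ?_⟩
    have hx : x = ∑ j, v j • b j := (b.sum_repr x).symm
    conv_lhs => rw [hx]
    rw [Finset.mul_sum]
    apply Finset.sum_congr rfl
    intro j _
    rw [hw j, mul_smul, zsmul_eq_mul (w j • b j) ((q : ℕ) : ℤ), Int.cast_natCast]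
  have hdet : (φ.mapMatrix T).det = 0 := Matrix.exists_mulVec_eq_zero_iff.mp ⟨_, hv0, hmul⟩
  rw [← RingHom.map_det] at hdet
  have hd : NumberField.discr K = T.det := rfl
  rw [hd]
  simp only [hφ, eq_intCast] at hdet
  exact (ZMod.intCast_zmod_eq_zero_iff_dvd _ q).mp hdet

end Vale.Agent.H2
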