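import Vale.Agent.H2.CompPoly3
import Vale.Agent.H2.DiscrDvd

/-!
# The totally real fields `ℚ(θ)`, `θ` a root of `h = g_{d,q} ∘ f_{d,m,q}`
-/

open Polynomial Finset IntermediateField NumberField

namespace Vale.Agent.H2

/-- A subfield of `ℝ` generated by roots of rational polynomials that split over `ℝ` is
totally real. -/
theorem isTotallyReal_adjoin_of_splits (S : Set ℝ)
    (hS : ∀ x ∈ S, ∃ p : ℚ[X], p ≠ 0 ∧ aeval x p = 0 ∧ (p.map (algebraMap ℚ ℝ)).Splits) :
    IsTotallyReal (IntermediateField.adjoin ℚ S) := by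
  refine ⟨fun v => ?_⟩
  rw [InfinitePlace.isReal_iff, ComplexEmbedding.isReal_iff]
  have key : (ComplexEmbedding.conjugate v.embedding).toRatAlgHom = v.embedding.toRatAlgHom := by
    apply adjoin_algHom_ext
    intro x hx
    obtain ⟨p, hp0, hpx, hsp⟩ := hS x hx
    set y : IntermediateField.adjoin ℚ S := ⟨x, subset_adjoin ℚ _ hx⟩ with hy
    have hyp : aeval y p = 0 := by
      have h1 : algebraMap (IntermediateField.adjoin ℚ S) ℝ (aeval y p) = 0 := by
        rw [← aeval_algebraMap_apply]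
        exact hpx
      exact (map_eq_zero _).mp h1
    have hz : aeval (v.embedding y) p = 0 := by
      have h1 := aeval_algHom_apply v.embedding.toRatAlgHom y p
      rw [hyp, map_zero] at h1
      exact h1
    have hroot : ((p.map (algebraMap ℚ ℝ)).map (algebraMap ℝ ℂ)).IsRoot (v.embedding y) := by
      rw [Polynomial.map_map, ← IsScalarTower.algebraMap_eq, IsRoot.def, eval_map, ← aeval_def]
      exact hz
    obtain ⟨t, ht⟩ := hsp.mem_range_of_isRoot (Polynomial.map_ne_zero hp0) hroot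
    change (starRingEnd ℂ) (v.embedding y) = v.embedding y
    rw [← ht]
    exact Complex.conj_ofReal t
  ext z
  have := congrArg (fun f => f z) key
  simpa using this

theorem gP_monic (d : ℕ) (hd : 1 ≤ d) : (gP d).Monic := by
  unfold gP
  apply Monic.sub_of_left (monic_prod_X_sub_C _ d)
  rw [degree_eq_natDegree (monic_prod_X_sub_C _ d).ne_zero, natDegree_prod_X_sub_C]
  exact lt_of_le_of_lt degree_C_le (by exact_mod_cast hd)

/-- The field `ℚ(θ)`: totally real of degree `d * m`, with discriminant divisible by `q`,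
containing a root of `g_d`. -/
theorem exists_field (d m q : ℕ) (hd : 2 ≤ d) (hm : 2 ≤ m) (hq : q.Prime) (hq2 : q ≠ 2)
    (hqg : ¬ (q : ℤ) ∣ (gP d).eval (2 * (d : ℤ) + 2)) :
    ∃ (F : IntermediateField ℚ ℝ) (_ : NumberField F), IsTotallyReal F ∧
      Module.finrank ℚ F = d * m ∧ (q : ℤ) ∣ discr F ∧ ∃ β : F, aeval β (gP d) = 0 := by
  obtain ⟨r, -, hroot, -⟩ := exists_roots_hQ d m q hd hm hq.one_le
  set θ : ℝ := r (⟨0, by omega⟩, ⟨0, by omega⟩) with hθ
  have hθroot : aeval θ (hQ d m q) = 0 := hroot _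
  set P : ℚ[X] := (hQ d m q).map (Int.castRingHom ℚ) with hP
  have hmonicZ := hQ_monic d m q (by omega) (by omega)
  have hPmonic : P.Monic := hmonicZ.map _
  have hPirr : Irreducible P := hQ_irreducible d m q hd (by omega) (hq.odd_of_ne_two hq2)
  have hPdeg : P.natDegree = d * m := by rw [hP, hmonicZ.natDegree_map, hQ_natDegree]
  have hPθ : aeval θ P = 0 := by
    rw [hP, ← algebraMap_int_eq, aeval_map_algebraMap]
    exact hθroot
  have hint : IsIntegral ℚ θ := ⟨P, hPmonic, by rw [← aeval_def]; exact hPθ⟩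
  have hintZ : IsIntegral ℤ θ := ⟨hQ d m q, hmonicZ, by rw [← aeval_def]; exact hθroot⟩
  have hmin : minpoly ℚ θ = P := (minpoly.eq_of_irreducible_of_monic hPirr hPθ hPmonic).symm
  have hfd : FiniteDimensional ℚ ℚ⟮θ⟯ := adjoin.finiteDimensional hint
  have hNF : NumberField ℚ⟮θ⟯ := { to_charZero := inferInstance, to_finiteDimensional := hfd }
  have hfinrank : Module.finrank ℚ ℚ⟮θ⟯ = d * m := by
    rw [adjoin.finrank hint, hmin, hPdeg]
  refine ⟨ℚ⟮θ⟯, hNF, ?_, hfinrank, ?_, ?_⟩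
  · -- totally real
    refine isTotallyReal_adjoin_of_splits {θ} ?_
    intro x hx
    rw [Set.mem_singleton_iff] at hx
    subst hx
    refine ⟨P, hPmonic.ne_zero, hPθ, ?_⟩
    have : P.map (algebraMap ℚ ℝ) = (hQ d m q).map (Int.castRingHom ℝ) := by
      rw [hP, Polynomial.map_map,
        RingHom.ext_int ((algebraMap ℚ ℝ).comp (Int.castRingHom ℚ)) (Int.castRingHom ℝ)]
    rw [this]
    exact splits_hQ d m q hd hm hq.one_le
  · -- the discriminant
    set θF : ℚ⟮θ⟯ := AdjoinSimple.gen ℚ θ with hθF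
    have hθFroot : aeval θF (hQ d m q) = 0 := by
      have h1 : algebraMap ℚ⟮θ⟯ ℝ (aeval θF (hQ d m q)) = 0 := by
        rw [← aeval_algebraMap_apply]
        exact hθroot
      exact (map_eq_zero _).mp h1
    have hθFint : IsIntegral ℤ θF :=
      ⟨hQ d m q, hmonicZ, by rw [← aeval_def]; exact hθFroot⟩
    have hqF : ((q : ℕ) : ℚ⟮θ⟯) ≠ 0 := Nat.cast_ne_zero.mpr hq.ne_zero
    set βF : ℚ⟮θ⟯ := aeval θF (fQ d m q) / (q : ℚ⟮θ⟯) with hβF
    have hqβ : (q : ℚ⟮θ⟯) * βF = aeval θF (fQ d m q) := by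
      rw [hβF]; field_simp
    have hβFroot : aeval βF (gP d) = 0 := by
      have h1 := aeval_gQ_mul d q βF
      rw [hqβ, ← aeval_hQ, hθFroot] at h1
      exact (mul_eq_zero.mp h1.symm).resolve_left (pow_ne_zero _ hqF)
    have hβFint : IsIntegral ℤ βF :=
      ⟨gP d, gP_monic d (by omega), by rw [← aeval_def]; exact hβFroot⟩
    set θ' : 𝓞 ℚ⟮θ⟯ := ⟨θF, hθFint⟩ with hθ'
    set β' : 𝓞 ℚ⟮θ⟯ := ⟨βF, hβFint⟩ with hβ'
    have hf' : aeval θ' (fQ d m q) = ((q : ℕ) : 𝓞 ℚ⟮θ⟯) * β' := by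
      apply RingOfIntegers.coe_injective
      have h1 : algebraMap (𝓞 ℚ⟮θ⟯) ℚ⟮θ⟯ (aeval θ' (fQ d m q)) = aeval θF (fQ d m q) := by
        rw [← aeval_algebraMap_apply]
        rfl
      rw [h1, ← hqβ, map_mul, map_natCast]
      rfl
    have hprod : ∏ j ∈ range m, (θ' - 4 * (d : 𝓞 ℚ⟮θ⟯) * q * j)
        = ((q : ℕ) : 𝓞 ℚ⟮θ⟯) * (β' - (2 * d + 2)) := by
      have h1 := aeval_fQ d m q θ'
      rw [hf'] at h1
      linear_combination -h1
    have hdiv : ((q : ℕ) : 𝓞 ℚ⟮θ⟯) ∣ θ' ^ m := by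
      rw [← Ideal.mem_span_singleton, ← Ideal.Quotient.eq_zero_iff_mem, map_pow]
      have h2 : ∀ j ∈ range m, Ideal.Quotient.mk (Ideal.span {((q : ℕ) : 𝓞 ℚ⟮θ⟯)})
          (θ' - 4 * (d : 𝓞 ℚ⟮θ⟯) * q * j)
          = Ideal.Quotient.mk (Ideal.span {((q : ℕ) : 𝓞 ℚ⟮θ⟯)}) θ' := by
        intro j _
        rw [Ideal.Quotient.eq, Ideal.mem_span_singleton]
        exact ⟨-(4 * (d : 𝓞 ℚ⟮θ⟯) * j), by ring⟩
      have h3 := congrArg (Ideal.Quotient.mk (Ideal.span {((q : ℕ) : 𝓞 ℚ⟮θ⟯)})) hprod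
      rw [map_prod, prod_congr rfl h2, prod_const, card_range] at h3
      rw [h3, Ideal.Quotient.eq_zero_iff_mem, Ideal.mem_span_singleton]
      exact dvd_mul_right _ _
    have hndiv : ¬ ((q : ℕ) : 𝓞 ℚ⟮θ⟯) ∣ θ' := by
      rintro ⟨z, hz⟩
      apply hqg
      have hz' : θF = algebraMap ℚ ℚ⟮θ⟯ (q : ℚ) * algebraMap (𝓞 ℚ⟮θ⟯) ℚ⟮θ⟯ z := by
        have := congrArg (algebraMap (𝓞 ℚ⟮θ⟯) ℚ⟮θ⟯) hz
        rw [map_mul, map_natCast] at this
        rw [map_natCast]
        exact this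
      have hnorm1 : Algebra.norm ℚ θF
          = (-1) ^ (d * m) * (((q : ℤ) ^ d * (gP d).eval (2 * (d : ℤ) + 2) : ℤ) : ℚ) := by
        have h1 := Algebra.PowerBasis.norm_gen_eq_coeff_zero_minpoly (adjoin.powerBasis hint)
        have h2 : (adjoin.powerBasis hint).gen = θF := rfl
        have h3 : (adjoin.powerBasis hint).dim = d * m := by
          change (minpoly ℚ θ).natDegree = d * m
          rw [hmin, hPdeg]
        rw [h2, h3, hθF, minpoly_gen, hmin, hP, coeff_map, coeff_zero_eq_eval_zero,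
          hQ_eval_zero d m q (by omega)] at h1
        rw [hθF]
        refine h1.trans ?_
        rw [eq_intCast]
      have hnorm2 : Algebra.norm ℚ θF
          = (q : ℚ) ^ (d * m) * ((Algebra.norm ℤ z : ℤ) : ℚ) := by
        rw [hz', map_mul, Algebra.norm_algebraMap, hfinrank, Algebra.coe_norm_int]
      rw [hnorm1] at hnorm2
      have hZ : (-1) ^ (d * m) * ((q : ℤ) ^ d * (gP d).eval (2 * (d : ℤ) + 2))
          = (q : ℤ) ^ (d * m) * Algebra.norm ℤ z := by
        have : (((-1) ^ (d * m) * ((q : ℤ) ^ d * (gP d).eval (2 * (d : ℤ) + 2)) : ℤ) : ℚ)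
            = (((q : ℤ) ^ (d * m) * Algebra.norm ℤ z : ℤ) : ℚ) := by
          push_cast
          push_cast at hnorm2
          exact hnorm2
        exact_mod_cast this
      have hdm : d * m = d + (d * m - d) := by
        have : d ≤ d * m := Nat.le_mul_of_pos_right d (by omega)
        omega
      have hpos : 1 ≤ d * m - d := by
        have : d * 2 ≤ d * m := Nat.mul_le_mul_left d hm
        omega
      have hqZ : ((q : ℤ) ^ d) ≠ 0 := pow_ne_zero _ (by exact_mod_cast hq.ne_zero)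
      have hZ2 : (-1) ^ (d * m) * (gP d).eval (2 * (d : ℤ) + 2)
          = (q : ℤ) ^ (d * m - d) * Algebra.norm ℤ z := by
        apply mul_left_cancel₀ hqZ
        rw [← mul_assoc ((q : ℤ) ^ d) ((q : ℤ) ^ (d * m - d)), ← pow_add, ← hdm, ← hZ]
        ring
      have hdvd : (q : ℤ) ∣ (-1) ^ (d * m) * (gP d).eval (2 * (d : ℤ) + 2) := by
        rw [hZ2]
        exact dvd_mul_of_dvd_left (dvd_pow_self _ (by omega)) _
      rcases neg_one_pow_eq_or ℤ (d * m) with h1 | h1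
      · rw [h1, one_mul] at hdvd
        exact hdvd
      · rw [h1, neg_one_mul, dvd_neg] at hdvd
        exact hdvd
    exact dvd_discr_of_nilpotent ℚ⟮θ⟯ q hq θ' m hdiv hndiv
  · -- the root of `g_d`
    set θF : ℚ⟮θ⟯ := AdjoinSimple.gen ℚ θ with hθF
    have hθFroot : aeval θF (hQ d m q) = 0 := by
      have h1 : algebraMap ℚ⟮θ⟯ ℝ (aeval θF (hQ d m q)) = 0 := by
        rw [← aeval_algebraMap_apply]
        exact hθroot
      exact (map_eq_zero _).mp h1
    have hqF : ((q : ℕ) : ℚ⟮θ⟯) ≠ 0 := Nat.cast_ne_zero.mpr hq.ne_zero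
    refine ⟨aeval θF (fQ d m q) / (q : ℚ⟮θ⟯), ?_⟩
    have hqβ : (q : ℚ⟮θ⟯) * (aeval θF (fQ d m q) / (q : ℚ⟮θ⟯)) = aeval θF (fQ d m q) := by
      field_simp
    have h1 := aeval_gQ_mul d q (aeval θF (fQ d m q) / (q : ℚ⟮θ⟯))
    rw [hqβ, ← aeval_hQ, hθFroot] at h1
    exact (mul_eq_zero.mp h1.symm).resolve_left (pow_ne_zero _ hqF)

end Vale.Agent.H2
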