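import Vale.Agent.H2.RealRoots

/-!
# The polynomials `g_d`, `g_{d,q}`, `f_{d,m,q}` and `h = g_{d,q} ∘ f_{d,m,q}`

`g_d(y) = ∏_{k<d} (y - 4(k+1)) - 2`, `g_{d,q}(y) = q^d g_d(y/q)`,
`f_{d,m,q}(x) = ∏_{j<m} (x - 4dqj) + q(2d+2)`.
-/

open Polynomial Finset

namespace Vale.Agent.H2

/-- `g_d(y) = ∏_{k<d} (y - 4(k+1)) - 2`. -/
noncomputable def gP (d : ℕ) : ℤ[X] := ∏ k ∈ range d, (X - C (4 * ((k : ℤ) + 1))) - C 2

/-- `g_{d,q}(y) = ∏_{k<d} (y - 4(k+1)q) - 2 q^d = q^d g_d(y/q)`. -/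
noncomputable def gQ (d q : ℕ) : ℤ[X] :=
  ∏ k ∈ range d, (X - C (4 * ((k : ℤ) + 1) * q)) - C (2 * (q : ℤ) ^ d)

/-- `f_{d,m,q}(x) = ∏_{j<m} (x - 4dqj) + q(2d+2)`. -/
noncomputable def fQ (d m q : ℕ) : ℤ[X] :=
  ∏ j ∈ range m, (X - C (4 * (d : ℤ) * q * j)) + C ((q : ℤ) * (2 * d + 2))

/-- `h = g_{d,q} ∘ f_{d,m,q}`. -/
noncomputable def hQ (d m q : ℕ) : ℤ[X] := (gQ d q).comp (fQ d m q)

section Eval

variable {A : Type*} [CommRing A]

theorem aeval_gP (d : ℕ) (y : A) :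
    aeval y (gP d) = ∏ k ∈ range d, (y - 4 * ((k : A) + 1)) - 2 := by
  simp only [gP, map_sub, map_prod, aeval_X, aeval_C]
  simp only [algebraMap_int_eq, eq_intCast]
  push_cast
  rfl

theorem aeval_gQ (d q : ℕ) (y : A) :
    aeval y (gQ d q) = ∏ k ∈ range d, (y - 4 * ((k : A) + 1) * q) - 2 * (q : A) ^ d := by
  simp only [gQ, map_sub, map_prod, aeval_X, aeval_C]
  simp only [algebraMap_int_eq, eq_intCast]
  push_cast
  rfl

theorem aeval_fQ (d m q : ℕ) (x : A) :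
    aeval x (fQ d m q) = ∏ j ∈ range m, (x - 4 * (d : A) * q * j) + (q : A) * (2 * d + 2) := by
  simp only [fQ, map_sub, map_add, map_prod, aeval_X, aeval_C]
  simp only [algebraMap_int_eq, eq_intCast]
  push_cast
  rfl

theorem aeval_hQ (d m q : ℕ) (x : A) :
    aeval x (hQ d m q) = aeval (aeval x (fQ d m q)) (gQ d q) := by
  rw [hQ, aeval_comp]

/-- `g_{d,q}(q y) = q^d g_d(y)`. -/
theorem aeval_gQ_mul (d q : ℕ) (y : A) :
    aeval ((q : A) * y) (gQ d q) = (q : A) ^ d * aeval y (gP d) := by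
  rw [aeval_gQ, aeval_gP, mul_sub]
  congr 1
  · have : ∀ k ∈ range d, ((q : A) * y - 4 * ((k : A) + 1) * q) = q * (y - 4 * ((k : A) + 1)) := by
      intro k _; ring
    rw [prod_congr rfl this, prod_mul_distrib, prod_const, card_range]
  · ring

end Eval

theorem eval_gP (d : ℕ) (y : ℤ) :
    (gP d).eval y = ∏ k ∈ range d, (y - 4 * ((k : ℤ) + 1)) - 2 := by
  have := aeval_gP d y
  rwa [← Polynomial.coe_aeval_eq_eval] at *

/-- `g_d` has no integer root when `d ≥ 2`. -/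
theorem gP_no_int_root (d : ℕ) (hd : 2 ≤ d) (y : ℤ) : (gP d).eval y ≠ 0 := by
  rw [eval_gP]
  intro h
  have h2 : ∏ k ∈ range d, (y - 4 * ((k : ℤ) + 1)) = 2 := by linarith
  rcases Int.even_or_odd y with hy | hy
  · have h3 : (2 : ℤ) ^ d ∣ ∏ k ∈ range d, (y - 4 * ((k : ℤ) + 1)) := by
      have : (2 : ℤ) ^ d = ∏ _k ∈ range d, (2 : ℤ) := by rw [prod_const, card_range]
      rw [this]
      apply prod_dvd_prod_of_dvd
      intro k _
      obtain ⟨t, ht⟩ := hy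
      exact ⟨t - 2 * ((k : ℤ) + 1), by rw [ht]; ring⟩
    have h4 : (4 : ℤ) ∣ 2 := by
      rw [h2] at h3
      exact dvd_trans (by
        have : (4 : ℤ) = 2 ^ 2 := by norm_num
        rw [this]
        exact pow_dvd_pow 2 hd) h3
    omega
  · have h3 : (2 : ℤ) ∣ ∏ k ∈ range d, (y - 4 * ((k : ℤ) + 1)) := by rw [h2]
    rw [Prime.dvd_finsetProd_iff Int.prime_two] at h3
    obtain ⟨k, _, hk⟩ := h3
    obtain ⟨t, ht⟩ := hy
    obtain ⟨s, hs⟩ := hk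
    omega

theorem gP_ne_zero (d : ℕ) (hd : 2 ≤ d) : gP d ≠ 0 := by
  intro h
  have := gP_no_int_root d hd 0
  rw [h] at this
  simp at this

end Vale.Agent.H2
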