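import Vale.Agent.H2.CompPoly

/-!
# Irreducibility of `h = g_{d,q} ∘ f_{d,m,q}` (Eisenstein at `2`)
-/

open Polynomial Finset

namespace Vale.Agent.H2

theorem natDegree_prod_X_sub_C (s : ℕ → ℤ) (d : ℕ) :
    (∏ k ∈ range d, (X - C (s k))).natDegree = d := by
  rw [natDegree_finsetProd_X_sub_C_eq_card, card_range]

theorem monic_prod_X_sub_C (s : ℕ → ℤ) (d : ℕ) : (∏ k ∈ range d, (X - C (s k))).Monic :=
  monic_prod_of_monic _ _ (fun k _ => monic_X_sub_C _)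

theorem gQ_monic (d q : ℕ) (hd : 1 ≤ d) : (gQ d q).Monic := by
  unfold gQ
  apply Monic.sub_of_left (monic_prod_X_sub_C _ d)
  rw [degree_eq_natDegree (monic_prod_X_sub_C _ d).ne_zero, natDegree_prod_X_sub_C]
  exact lt_of_le_of_lt degree_C_le (by exact_mod_cast hd)

theorem gQ_natDegree (d q : ℕ) : (gQ d q).natDegree = d := by
  unfold gQ
  rw [natDegree_sub_C, natDegree_prod_X_sub_C]

theorem fQ_monic (d m q : ℕ) (hm : 1 ≤ m) : (fQ d m q).Monic := by
  unfold fQ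
  apply Monic.add_of_left (monic_prod_X_sub_C _ m)
  rw [degree_eq_natDegree (monic_prod_X_sub_C _ m).ne_zero, natDegree_prod_X_sub_C]
  exact lt_of_le_of_lt degree_C_le (by exact_mod_cast hm)

theorem fQ_natDegree (d m q : ℕ) : (fQ d m q).natDegree = m := by
  unfold fQ
  rw [natDegree_add_C, natDegree_prod_X_sub_C]

theorem hQ_natDegree (d m q : ℕ) : (hQ d m q).natDegree = d * m := by
  rw [hQ, natDegree_comp, gQ_natDegree, fQ_natDegree]

theorem hQ_monic (d m q : ℕ) (hd : 1 ≤ d) (hm : 1 ≤ m) : (hQ d m q).Monic := by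
  unfold Monic
  rw [hQ, leadingCoeff_comp (by rw [fQ_natDegree]; omega), (gQ_monic d q hd).leadingCoeff,
    (fQ_monic d m q hm).leadingCoeff, one_pow, one_mul]

theorem gQ_map_two (d q : ℕ) : (gQ d q).map (Int.castRingHom (ZMod 2)) = X ^ d := by
  have h1 : ∀ k : ℕ, (Int.castRingHom (ZMod 2)) (4 * ((k : ℤ) + 1) * q) = 0 := by
    intro k
    rw [eq_intCast, ZMod.intCast_zmod_eq_zero_iff_dvd]
    exact ⟨2 * ((k : ℤ) + 1) * q, by push_cast; ring⟩
  have h2 : (Int.castRingHom (ZMod 2)) (2 * (q : ℤ) ^ d) = 0 := by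
    rw [eq_intCast, ZMod.intCast_zmod_eq_zero_iff_dvd]
    exact ⟨(q : ℤ) ^ d, by push_cast; ring⟩
  unfold gQ
  rw [Polynomial.map_sub, Polynomial.map_prod, map_C, h2]
  simp only [Polynomial.map_sub, map_X, map_C, h1]
  simp

theorem fQ_map_two (d m q : ℕ) : (fQ d m q).map (Int.castRingHom (ZMod 2)) = X ^ m := by
  have h1 : ∀ j : ℕ, (Int.castRingHom (ZMod 2)) (4 * (d : ℤ) * q * j) = 0 := by
    intro j
    rw [eq_intCast, ZMod.intCast_zmod_eq_zero_iff_dvd]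
    exact ⟨2 * (d : ℤ) * q * j, by push_cast; ring⟩
  have h2 : (Int.castRingHom (ZMod 2)) ((q : ℤ) * (2 * d + 2)) = 0 := by
    rw [eq_intCast, ZMod.intCast_zmod_eq_zero_iff_dvd]
    exact ⟨(q : ℤ) * (d + 1), by push_cast; ring⟩
  unfold fQ
  rw [Polynomial.map_add, Polynomial.map_prod, map_C, h2]
  simp only [Polynomial.map_sub, map_X, map_C, h1]
  simp

theorem hQ_map_two (d m q : ℕ) : (hQ d m q).map (Int.castRingHom (ZMod 2)) = X ^ (d * m) := by
  rw [hQ, map_comp, gQ_map_two, fQ_map_two, X_pow_comp, ← pow_mul, mul_comm]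

/-- On even integers `g_d` takes values congruent to `2` modulo `4`. -/
theorem gP_eval_even (d : ℕ) (hd : 2 ≤ d) (y : ℤ) (hy : Even y) :
    ∃ t : ℤ, (gP d).eval y = 4 * t - 2 := by
  rw [eval_gP]
  have h3 : (2 : ℤ) ^ d ∣ ∏ k ∈ range d, (y - 4 * ((k : ℤ) + 1)) := by
    have : (2 : ℤ) ^ d = ∏ _k ∈ range d, (2 : ℤ) := by rw [prod_const, card_range]
    rw [this]
    apply prod_dvd_prod_of_dvd
    intro k _
    obtain ⟨t, ht⟩ := hy
    exact ⟨t - 2 * ((k : ℤ) + 1), by rw [ht]; ring⟩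
  have h4 : (4 : ℤ) ∣ ∏ k ∈ range d, (y - 4 * ((k : ℤ) + 1)) := by
    refine dvd_trans ?_ h3
    have : (4 : ℤ) = 2 ^ 2 := by norm_num
    rw [this]
    exact pow_dvd_pow 2 hd
  obtain ⟨t, ht⟩ := h4
  exact ⟨t, by rw [ht]⟩

/-- `h(0) = q^d g_d(2d+2)`. -/
theorem hQ_eval_zero (d m q : ℕ) (hm : 1 ≤ m) :
    (hQ d m q).eval 0 = (q : ℤ) ^ d * (gP d).eval (2 * (d : ℤ) + 2) := by
  have h1 : aeval (0 : ℤ) (fQ d m q) = (q : ℤ) * (2 * (d : ℤ) + 2) := by
    rw [aeval_fQ]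
    have : ∏ j ∈ range m, ((0 : ℤ) - 4 * (d : ℤ) * q * j) = 0 :=
      prod_eq_zero (mem_range.mpr hm) (by simp)
    rw [this, zero_add]
  have h2 := aeval_hQ d m q (0 : ℤ)
  rw [h1, aeval_gQ_mul] at h2
  rw [← Polynomial.coe_aeval_eq_eval, ← Polynomial.coe_aeval_eq_eval]
  exact h2

theorem hQ_eisenstein (d m q : ℕ) (hd : 2 ≤ d) (hm : 1 ≤ m) (hq : Odd q) :
    (hQ d m q).IsEisensteinAt (Ideal.span {(2 : ℤ)}) := by
  refine ⟨?_, ?_, ?_⟩
  · rw [(hQ_monic d m q (by omega) hm).leadingCoeff, Ideal.mem_span_singleton]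
    omega
  · intro n hn
    rw [hQ_natDegree] at hn
    rw [Ideal.mem_span_singleton]
    have h1 := congrArg (fun p => p.coeff n) (hQ_map_two d m q)
    simp only [coeff_map, coeff_X_pow, eq_intCast] at h1
    rw [if_neg (by omega)] at h1
    exact (ZMod.intCast_zmod_eq_zero_iff_dvd _ 2).mp h1
  · rw [Ideal.span_singleton_pow, Ideal.mem_span_singleton, coeff_zero_eq_eval_zero,
      hQ_eval_zero d m q hm]
    obtain ⟨t, ht⟩ := gP_eval_even d hd (2 * (d : ℤ) + 2) ⟨(d : ℤ) + 1, by ring⟩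
    rw [ht]
    have hodd : Odd ((q : ℤ) ^ d) := Odd.pow (by exact_mod_cast hq)
    obtain ⟨s, hs⟩ := hodd
    rw [hs]
    rintro ⟨u, hu⟩
    have h5 : (2 * s + 1) * (4 * t - 2) = 4 * (2 * (s * t) - s + t) - 2 := by ring
    rw [h5] at hu
    omega

theorem hQ_irreducible (d m q : ℕ) (hd : 2 ≤ d) (hm : 1 ≤ m) (hq : Odd q) :
    Irreducible ((hQ d m q).map (Int.castRingHom ℚ)) := by
  have hmonic := hQ_monic d m q (by omega) hm
  have hirr : Irreducible (hQ d m q) :=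
    (hQ_eisenstein d m q hd hm hq).irreducible
      ((Ideal.span_singleton_prime (by norm_num)).mpr Int.prime_two) hmonic.isPrimitive
      (by rw [hQ_natDegree]; positivity)
  exact (IsPrimitive.Int.irreducible_iff_irreducible_map_cast hmonic.isPrimitive).mp hirr

end Vale.Agent.H2
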