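import Vale.Agent.H2.CompPoly2

/-!
# All roots of `h = g_{d,q} ∘ f_{d,m,q}` are real
-/

open Polynomial Finset

namespace Vale.Agent.H2

theorem one_le_abs_natCast_sub {i j : ℕ} (hij : i ≠ j) : (1 : ℝ) ≤ |(i : ℝ) - (j : ℝ)| := by
  have h : (i : ℤ) - (j : ℤ) ≠ 0 := sub_ne_zero.mpr (by exact_mod_cast hij)
  have h1 := Int.one_le_abs h
  have h2 : ((1 : ℤ) : ℝ) ≤ ((|(i : ℤ) - (j : ℤ)| : ℤ) : ℝ) := by exact_mod_cast h1
  simpa using h2

/-- `h` has `d * m` distinct real roots. -/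
theorem exists_roots_hQ (d m q : ℕ) (hd : 2 ≤ d) (hm : 2 ≤ m) (hq : 1 ≤ q) :
    ∃ r : Fin d × Fin m → ℝ, Function.Injective r ∧
      (∀ p, aeval (r p) (hQ d m q) = 0) ∧
      ∃ β : Fin d → ℝ, (∀ k, aeval (β k) (gP d) = 0) ∧
        ∀ p, aeval (r p) (fQ d m q) = (q : ℝ) * β p.1 := by
  have hd' : (2 : ℝ) ≤ d := by exact_mod_cast hd
  have hq' : (1 : ℝ) ≤ q := by exact_mod_cast hq
  -- the roots of g
  have gap1 : ∀ i j : ℕ, i ≠ j →
      2 * (2 : ℝ) ≤ |(fun i : ℕ => 4 * ((i : ℝ) + 1)) i - (fun i : ℕ => 4 * ((i : ℝ) + 1)) j| := by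
    intro i j hij
    have h1 := one_le_abs_natCast_sub hij
    have h2 : 4 * ((i : ℝ) + 1) - 4 * ((j : ℝ) + 1) = 4 * ((i : ℝ) - j) := by ring
    simp only
    rw [h2, abs_mul, abs_of_pos (by norm_num : (0 : ℝ) < 4)]
    linarith
  have hc1 : |(2 : ℝ)| < 2 ^ d := by
    rw [abs_of_pos (by norm_num)]
    calc (2 : ℝ) < 2 ^ 2 := by norm_num
      _ ≤ 2 ^ d := pow_le_pow_right₀ (by norm_num) hd
  have hβ : ∀ k : Fin d, ∃ x : ℝ, 4 * (((k : ℕ) : ℝ) + 1) - 2 < x ∧ x < 4 * (((k : ℕ) : ℝ) + 1) + 2 ∧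
      ∏ i ∈ range d, (x - 4 * ((i : ℝ) + 1)) = 2 := fun k =>
    exists_root_near (fun i : ℕ => 4 * ((i : ℝ) + 1)) 2 (by norm_num) gap1 d 2 hc1 k k.2
  choose β hβ1 hβ2 hβ3 using hβ
  have hβg : ∀ k, aeval (β k) (gP d) = 0 := by
    intro k
    rw [aeval_gP, hβ3 k, sub_self]
  -- bounds on the roots of g
  have hβlow : ∀ k, 2 < β k := by
    intro k
    have h0 : (0 : ℝ) ≤ ((k : ℕ) : ℝ) := Nat.cast_nonneg _
    linarith [hβ1 k]
  have hβup : ∀ k, β k < 4 * (d : ℝ) + 2 := by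
    intro k
    have h0 : ((k : ℕ) : ℝ) + 1 ≤ d := by exact_mod_cast k.2
    linarith [hβ2 k]
  -- the roots of f - q β
  set D : ℝ := 2 * d * q with hDdef
  have hD4 : (4 : ℝ) ≤ D := by
    rw [hDdef]
    nlinarith
  have hD : 0 < D := by linarith
  have gap2 : ∀ i j : ℕ, i ≠ j →
      2 * D ≤ |(fun i : ℕ => 4 * (d : ℝ) * q * i) i - (fun i : ℕ => 4 * (d : ℝ) * q * i) j| := by
    intro i j hij
    have h1 := one_le_abs_natCast_sub hij
    have h2 : 4 * (d : ℝ) * q * i - 4 * (d : ℝ) * q * j = (2 * D) * ((i : ℝ) - j) := by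
      rw [hDdef]; ring
    simp only
    rw [h2, abs_mul, abs_of_pos (by linarith : (0 : ℝ) < 2 * D)]
    nlinarith
  have hc2 : ∀ k : Fin d, |(q : ℝ) * (β k - (2 * d + 2))| < D ^ m := by
    intro k
    have h1 : |β k - (2 * d + 2)| < 2 * d := by
      rw [abs_lt]
      constructor
      · linarith [hβlow k]
      · linarith [hβup k]
    have h2 : |(q : ℝ) * (β k - (2 * d + 2))| < D := by
      rw [abs_mul, abs_of_pos (by linarith : (0 : ℝ) < q), hDdef]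
      nlinarith
    exact lt_of_lt_of_le h2 (le_self_pow₀ (by linarith) (by omega))
  have hx : ∀ (k : Fin d) (j : Fin m), ∃ x : ℝ, 4 * (d : ℝ) * q * ((j : ℕ) : ℝ) - D < x ∧
      x < 4 * (d : ℝ) * q * ((j : ℕ) : ℝ) + D ∧
      ∏ i ∈ range m, (x - 4 * (d : ℝ) * q * (i : ℝ)) = (q : ℝ) * (β k - (2 * d + 2)) := fun k j =>
    exists_root_near (fun i : ℕ => 4 * (d : ℝ) * q * i) D hD gap2 m _ (hc2 k) j j.2
  choose x hx1 hx2 hx3 using hx
  have hfx : ∀ (k : Fin d) (j : Fin m), aeval (x k j) (fQ d m q) = (q : ℝ) * β k := by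
    intro k j
    rw [aeval_fQ, hx3 k j]
    ring
  refine ⟨fun p => x p.1 p.2, ?_, ?_, β, hβg, fun p => hfx p.1 p.2⟩
  · rintro ⟨k, j⟩ ⟨k', j'⟩ heq
    simp only at heq
    have h1 : (q : ℝ) * β k = (q : ℝ) * β k' := by
      rw [← hfx k j, ← hfx k' j', heq]
    have h2 : β k = β k' := mul_left_cancel₀ (by linarith : (q : ℝ) ≠ 0) h1
    have hk : k = k' := by
      by_contra hne
      rcases lt_or_gt_of_ne hne with hlt | hlt
      · have h3 : ((k : ℕ) : ℝ) + 1 ≤ ((k' : ℕ) : ℝ) := by exact_mod_cast hlt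
        linarith [hβ2 k, hβ1 k']
      · have h3 : ((k' : ℕ) : ℝ) + 1 ≤ ((k : ℕ) : ℝ) := by exact_mod_cast hlt
        linarith [hβ2 k', hβ1 k]
    subst hk
    have hj : j = j' := by
      by_contra hne
      rcases lt_or_gt_of_ne hne with hlt | hlt
      · have h3 : ((j : ℕ) : ℝ) + 1 ≤ ((j' : ℕ) : ℝ) := by exact_mod_cast hlt
        have h4 : 4 * (d : ℝ) * q * ((j : ℕ) : ℝ) + D ≤ 4 * (d : ℝ) * q * ((j' : ℕ) : ℝ) - D := by
          have : 4 * (d : ℝ) * q * ((j' : ℕ) : ℝ) - D - (4 * (d : ℝ) * q * ((j : ℕ) : ℝ) + D)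
              = 2 * D * (((j' : ℕ) : ℝ) - ((j : ℕ) : ℝ) - 1) := by rw [hDdef]; ring
          nlinarith
        linarith [hx2 k j, hx1 k j']
      · have h3 : ((j' : ℕ) : ℝ) + 1 ≤ ((j : ℕ) : ℝ) := by exact_mod_cast hlt
        have h4 : 4 * (d : ℝ) * q * ((j' : ℕ) : ℝ) + D ≤ 4 * (d : ℝ) * q * ((j : ℕ) : ℝ) - D := by
          have : 4 * (d : ℝ) * q * ((j : ℕ) : ℝ) - D - (4 * (d : ℝ) * q * ((j' : ℕ) : ℝ) + D)
              = 2 * D * (((j : ℕ) : ℝ) - ((j' : ℕ) : ℝ) - 1) := by rw [hDdef]; ring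
          nlinarith
        linarith [hx2 k j', hx1 k j]
    rw [hj]
  · rintro ⟨k, j⟩
    simp only
    rw [aeval_hQ, hfx k j, aeval_gQ_mul, hβg k, mul_zero]

/-- `h` splits over `ℝ`. -/
theorem splits_hQ (d m q : ℕ) (hd : 2 ≤ d) (hm : 2 ≤ m) (hq : 1 ≤ q) :
    ((hQ d m q).map (Int.castRingHom ℝ)).Splits := by
  obtain ⟨r, hinj, hroot, -⟩ := exists_roots_hQ d m q hd hm hq
  have hmonic : ((hQ d m q).map (Int.castRingHom ℝ)).Monic :=
    (hQ_monic d m q (by omega) (by omega)).map _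
  have hdeg : ((hQ d m q).map (Int.castRingHom ℝ)).natDegree = d * m := by
    rw [(hQ_monic d m q (by omega) (by omega)).natDegree_map, hQ_natDegree]
  rw [splits_iff_card_roots, hdeg]
  apply le_antisymm
  · rw [← hdeg]
    exact card_roots' _
  · classical
    have hsub : (univ : Finset (Fin d × Fin m)).image r ⊆
        ((hQ d m q).map (Int.castRingHom ℝ)).roots.toFinset := by
      intro y hy
      obtain ⟨p, -, rfl⟩ := mem_image.mp hy
      rw [Multiset.mem_toFinset, mem_roots hmonic.ne_zero, IsRoot.def, eval_map]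
      have := hroot p
      rwa [aeval_def, algebraMap_int_eq] at this
    calc d * m = (univ : Finset (Fin d × Fin m)).card := by
          rw [card_univ, Fintype.card_prod, Fintype.card_fin, Fintype.card_fin]
      _ = ((univ : Finset (Fin d × Fin m)).image r).card := (card_image_of_injective _ hinj).symm
      _ ≤ ((hQ d m q).map (Int.castRingHom ℝ)).roots.toFinset.card := card_le_card hsub
      _ ≤ Multiset.card ((hQ d m q).map (Int.castRingHom ℝ)).roots := Multiset.toFinset_card_le _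

end Vale.Agent.H2
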