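import Mathlib

namespace Vale.Agent.H2

/-- The image of `SL(n, ℤ)` in `SL(n, ℝ)`. -/
def intSL (n : ℕ) : Subgroup (Matrix.SpecialLinearGroup (Fin n) ℝ) :=
  (Matrix.SpecialLinearGroup.map (Int.castRingHom ℝ)).range

/-- The space `X_n = SL_n(ℤ)\SL_n(ℝ)` of unimodular lattices in `ℝⁿ` (row vectors): the quotient
of `SL(n, ℝ)` by the left multiplication action of `SL(n, ℤ)`, with the quotient topology.
The class of `g` corresponds to the lattice spanned over `ℤ` by the rows of `g`. -/
abbrev LatticeSpace (n : ℕ) : Type :=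
  Quotient (MulAction.orbitRel (intSL n) (Matrix.SpecialLinearGroup (Fin n) ℝ))

end Vale.Agent.H2
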