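import Vale.Agent.H20.OTDefs3
import Vale.Agent.H20.OTStab

/-!
# Discretisation of a pair of measures by matched finite atoms (piece E1 for P074)
-/

namespace Vale.Agent.H2

open MeasureTheory Set

/-- The push-forward of a measure under a measurable map with (almost surely) finitely many
values is the corresponding finite combination of Dirac masses. -/
theorem map_eq_sum_dirac {α β : Type*} [MeasurableSpace α] [MeasurableSpace β]
    [MeasurableSingletonClass β] (π : Measure α) {Φ : α → β} (hΦ : Measurable Φ)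
    {ι : Type*} [Fintype ι] (y : ι → β) (hy : Function.Injective y)
    (h : ∀ᵐ a ∂π, Φ a ∈ Set.range y) :
    π.map Φ = ∑ i, π (Φ ⁻¹' {y i}) • Measure.dirac (y i) := by
  classical
  ext s hs
  rw [Measure.map_apply hΦ hs, Measure.coe_finsetSum, Finset.sum_apply]
  simp only [Measure.smul_apply, Measure.dirac_apply' _ hs, smul_eq_mul]
  have h1 : π (Φ ⁻¹' s) = π (⋃ i ∈ (Finset.univ.filter fun i => y i ∈ s), Φ ⁻¹' {y i}) := by
    apply measure_congr
    filter_upwards [h] with a ha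
    obtain ⟨i, hi⟩ := ha
    apply propext
    constructor
    · intro has
      have has' : Φ a ∈ s := has
      refine Set.mem_iUnion₂.2 ⟨i, ?_, ?_⟩
      · simp only [Finset.mem_filter, Finset.mem_univ, true_and]
        rw [hi]; exact has'
      · show Φ a ∈ ({y i} : Set β)
        rw [hi]; rfl
    · intro hau
      obtain ⟨j, hj, haj⟩ := Set.mem_iUnion₂.1 hau
      have : Φ a = y j := haj
      show Φ a ∈ s
      rw [this]
      simpa using hj
  rw [h1, measure_biUnion_finset]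
  · rw [Finset.sum_filter]
    refine Finset.sum_congr rfl fun i _ => ?_
    by_cases hi : y i ∈ s
    · simp [hi]
    · simp [hi]
  · intro i _ j _ hij
    refine Set.disjoint_left.2 fun a hai haj => hij (hy ?_)
    have h1 : Φ a = y i := hai
    have h2 : Φ a = y j := haj
    rw [← h1, ← h2]
  · intro i _
    exact hΦ (measurableSet_singleton _)

section round

variable {E : Type*} [PseudoMetricSpace E] [Zero E]

/-- Round a point to the first centre of the list within distance `e`, or to `0`. -/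
noncomputable def roundTo (e : ℝ) : List E → E → E
  | [], _ => 0
  | c :: L, a => if dist a c < e then c else roundTo e L a

theorem roundTo_mem (e : ℝ) (L : List E) (a : E) : roundTo e L a = 0 ∨ roundTo e L a ∈ L := by
  induction L with
  | nil => left; rfl
  | cons c L ih =>
    by_cases h : dist a c < e
    · right; simp [roundTo, h]
    · rcases ih with h0 | h1
      · left; simp [roundTo, h, h0]
      · right; simp [roundTo, h, h1]

theorem roundTo_dist (e : ℝ) (L : List E) (a : E) (ha : ∃ c ∈ L, dist a c < e) :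
    dist a (roundTo e L a) < e := by
  induction L with
  | nil => obtain ⟨c, hc, _⟩ := ha; simp at hc
  | cons c L ih =>
    by_cases h : dist a c < e
    · simp [roundTo, h]
    · simp only [roundTo, h, if_false]
      apply ih
      obtain ⟨c', hc', hd⟩ := ha
      rcases List.mem_cons.1 hc' with rfl | hmem
      · exact absurd hd h
      · exact ⟨c', hmem, hd⟩

theorem measurable_roundTo [MeasurableSpace E] [OpensMeasurableSpace E] (e : ℝ) (L : List E) :
    Measurable (roundTo e L) := by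
  induction L with
  | nil => exact measurable_const
  | cons c L ih =>
    have hs : MeasurableSet {a : E | dist a c < e} := by
      have : {a : E | dist a c < e} = Metric.ball c e := rfl
      rw [this]; exact Metric.isOpen_ball.measurableSet
    exact Measurable.ite hs measurable_const ih

end round

/-- A small positive scalar `τ` for which the map sending `u, v` to `u + τ • v` is injective
on `F × F`. -/
theorem exists_small_injOn {E : Type*} [AddCommGroup E] [Module ℝ E] (F : Finset E)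
    {τ₀ : ℝ} (hτ₀ : 0 < τ₀) :
    ∃ τ : ℝ, 0 < τ ∧ τ ≤ τ₀ ∧ ∀ u ∈ F, ∀ v ∈ F, ∀ u' ∈ F, ∀ v' ∈ F,
      u + τ • v = u' + τ • v' → u = u' ∧ v = v' := by
  classical
  set B : Set ℝ := ⋃ q ∈ ((F ×ˢ F) ×ˢ (F ×ˢ F) : Finset ((E × E) × (E × E))),
    {τ : ℝ | q.1.2 ≠ q.2.2 ∧ q.1.1 + τ • q.1.2 = q.2.1 + τ • q.2.2} with hB
  have hBfin : B.Finite := by
    refine Set.Finite.biUnion (Finset.finite_toSet _) fun q _ => ?_
    refine Set.Subsingleton.finite ?_
    intro τ₁ h₁ τ₂ h₂
    obtain ⟨hne, e₁⟩ := h₁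
    obtain ⟨-, e₂⟩ := h₂
    have e : (τ₁ - τ₂) • (q.1.2 - q.2.2) = 0 := by
      have e₁' : τ₁ • q.1.2 - τ₁ • q.2.2 = q.2.1 - q.1.1 := by
        rw [sub_eq_sub_iff_add_eq_add]; rw [add_comm, e₁, add_comm]
      have e₂' : τ₂ • q.1.2 - τ₂ • q.2.2 = q.2.1 - q.1.1 := by
        rw [sub_eq_sub_iff_add_eq_add]; rw [add_comm, e₂, add_comm]
      rw [sub_smul, smul_sub, smul_sub, e₁', e₂', sub_self]
    rcases smul_eq_zero.1 e with h | h
    · exact sub_eq_zero.1 h
    · exact absurd (sub_eq_zero.1 h) hne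
  obtain ⟨τ, hτI, hτB⟩ := (Set.Ioc_infinite hτ₀).exists_notMem_finite hBfin
  refine ⟨τ, hτI.1, hτI.2, ?_⟩
  intro u hu v hv u' hu' v' hv' heq
  by_cases hvv : v = v'
  · subst hvv
    exact ⟨add_right_cancel heq, rfl⟩
  · exfalso
    apply hτB
    rw [hB]
    refine Set.mem_iUnion₂.2 ⟨((u, v), (u', v')), ?_, hvv, heq⟩
    simp only [Finset.mem_product]
    exact ⟨⟨hu, hv⟩, hu', hv'⟩

/-- A finite measure pushed forward by a measurable map with values in a finite set is a
finite combination of Dirac masses at distinct points, with positive weights. -/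
theorem discretize_map {Ω β : Type*} [MeasurableSpace Ω] [MeasurableSpace β]
    [MeasurableSingletonClass β] (π : Measure Ω) [IsFiniteMeasure π] {P : Ω → β}
    (hP : Measurable P) (FF : Finset β) (hPF : ∀ p, P p ∈ FF) :
    ∃ (n : ℕ) (q : Fin n → β) (w : Fin n → ℝ), Function.Injective q ∧ (∀ i, 0 < w i) ∧
      (∀ i, q i ∈ FF) ∧ (∀ i, w i = (π (P ⁻¹' {q i})).toReal) ∧
      π.map P = ∑ i, ENNReal.ofReal (w i) • Measure.dirac (q i) := by
  classical
  set I : Finset β := FF.filter fun q => 0 < π (P ⁻¹' {q}) with hI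
  set e := Fintype.equivFin {q // q ∈ I} with he
  have hinj : Function.Injective fun i : Fin (Fintype.card {q // q ∈ I}) => (e.symm i).1 := by
    intro i j hij
    exact e.symm.injective (Subtype.ext hij)
  refine ⟨Fintype.card {q // q ∈ I}, fun i => (e.symm i).1,
    fun i => (π (P ⁻¹' {(e.symm i).1})).toReal, hinj, ?_, ?_, fun i => rfl, ?_⟩
  · intro i
    have hmem : (e.symm i).1 ∈ I := (e.symm i).2
    have hpos : 0 < π (P ⁻¹' {(e.symm i).1}) := (Finset.mem_filter.1 hmem).2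
    exact ENNReal.toReal_pos hpos.ne' (measure_ne_top _ _)
  · intro i
    have hmem : (e.symm i).1 ∈ I := (e.symm i).2
    exact (Finset.mem_filter.1 hmem).1
  · have hae : ∀ᵐ a ∂π, P a ∈ Set.range fun i : Fin (Fintype.card {q // q ∈ I}) =>
        (e.symm i).1 := by
      have hnull : π (⋃ q' ∈ ((FF.filter fun q => π (P ⁻¹' {q}) = 0 : Finset β) : Set β),
          P ⁻¹' {q'}) = 0 := by
        refine (measure_biUnion_null_iff (Finset.countable_toSet _)).2 ?_
        intro q' hq'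
        exact (Finset.mem_filter.1 (Finset.mem_coe.1 hq')).2
      rw [ae_iff]
      refine measure_mono_null ?_ hnull
      intro a ha
      have ha' : P a ∉ Set.range fun i : Fin (Fintype.card {q // q ∈ I}) => (e.symm i).1 := ha
      refine Set.mem_iUnion₂.2 ⟨P a, ?_, rfl⟩
      refine Finset.mem_coe.2 (Finset.mem_filter.2 ⟨hPF a, ?_⟩)
      by_contra hne
      have hpos : 0 < π (P ⁻¹' {P a}) := pos_iff_ne_zero.2 hne
      have hmem : P a ∈ I := Finset.mem_filter.2 ⟨hPF a, hpos⟩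
      exact ha' ⟨e ⟨P a, hmem⟩, by simp⟩
    rw [map_eq_sum_dirac π hP (fun i : Fin (Fintype.card {q // q ∈ I}) => (e.symm i).1) hinj hae]
    refine Finset.sum_congr rfl fun i _ => ?_
    rw [ENNReal.ofReal_toReal (measure_ne_top _ _)]

/-- Discretisation of a coupling concentrated on `Y × Y`: matched atoms with injective sites. -/
theorem exists_atoms_of_coupling {E : Type*} [NormedAddCommGroup E] [NormedSpace ℝ E]
    [MeasurableSpace E] [BorelSpace E] [SecondCountableTopology E] {Y : Set E}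
    (hYc : IsCompact Y) (π : Measure (E × E)) [IsProbabilityMeasure π]
    (hae : ∀ᵐ p ∂π, p.1 ∈ Y ∧ p.2 ∈ Y) {δ : ℝ} (hδ : 0 < δ) :
    ∃ (n : ℕ) (y z : Fin n → E) (w : Fin n → ℝ) (Φy Φz : E × E → E),
      Function.Injective y ∧ Function.Injective z ∧ (∀ i, 0 < w i) ∧ (∑ i, w i) = 1 ∧
      (∀ i, y i ∈ Metric.cthickening δ Y) ∧ (∀ i, z i ∈ Metric.cthickening δ Y) ∧
      Measurable Φy ∧ Measurable Φz ∧
      π.map Φy = ∑ i, ENNReal.ofReal (w i) • Measure.dirac (y i) ∧
      π.map Φz = ∑ i, ENNReal.ofReal (w i) • Measure.dirac (z i) ∧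
      (∀ᵐ p ∂π, ‖p.1 - Φy p‖ ≤ δ) ∧ (∀ᵐ p ∂π, ‖p.2 - Φz p‖ ≤ δ) ∧
      (∀ᵐ p ∂π, ‖Φy p - Φz p‖ ≤ ‖p.1 - p.2‖ + δ) ∧
      ∑ i, ENNReal.ofReal (w i) * ENNReal.ofReal (‖y i - z i‖ ^ 2)
        = ∫⁻ p, ENNReal.ofReal (‖Φy p - Φz p‖ ^ 2) ∂π := by
  classical
  obtain ⟨CY, hCY⟩ := hYc.isBounded.exists_norm_le
  set R : ℝ := max CY 0 with hR_def
  have hR : 0 ≤ R := le_max_right _ _
  have hRY : ∀ a ∈ Y, ‖a‖ ≤ R := fun a ha => (hCY a ha).trans (le_max_left _ _)
  have hδ4 : 0 < δ / 4 := by positivity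
  obtain ⟨t, htY, htfin, hcover⟩ := hYc.finite_cover_balls hδ4
  set L : List E := htfin.toFinset.toList with hL
  have hLmem : ∀ c, c ∈ L ↔ c ∈ t := by
    intro c
    rw [hL, Finset.mem_toList, Set.Finite.mem_toFinset]
  set r : E → E := roundTo (δ / 4) L with hr
  have hrm : Measurable r := measurable_roundTo _ _
  set F : Finset E := insert 0 htfin.toFinset with hF
  have hrF : ∀ a, r a ∈ F := by
    intro a
    rcases roundTo_mem (δ / 4) L a with h0 | h1
    · rw [hr, h0]; exact Finset.mem_insert_self _ _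
    · exact Finset.mem_insert_of_mem ((Set.Finite.mem_toFinset htfin).2 ((hLmem _).1 h1))
  have hrd : ∀ a ∈ Y, dist a (r a) < δ / 4 := by
    intro a ha
    apply roundTo_dist
    obtain ⟨c, hc, hac⟩ := Set.mem_iUnion₂.1 (hcover ha)
    exact ⟨c, (hLmem c).2 hc, hac⟩
  have hFn : ∀ v ∈ F, ‖v‖ ≤ R := by
    intro v hv
    rcases Finset.mem_insert.1 hv with rfl | hv'
    · simpa using hR
    · exact hRY v (htY ((Set.Finite.mem_toFinset htfin).1 hv'))
  set τ₀ : ℝ := min 1 (δ / (4 * (R + 1))) with hτ₀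
  have hτ₀pos : 0 < τ₀ := lt_min one_pos (by positivity)
  obtain ⟨τ, hτpos, hτle, hτinj⟩ := exists_small_injOn F hτ₀pos
  have hτ1 : τ ≤ 1 := hτle.trans (min_le_left _ _)
  have hτv : ∀ v ∈ F, ‖τ • v‖ ≤ δ / 4 := by
    intro v hv
    rw [norm_smul, Real.norm_eq_abs, abs_of_pos hτpos]
    have h1 : τ ≤ δ / (4 * (R + 1)) := hτle.trans (min_le_right _ _)
    have h2 : τ * ‖v‖ ≤ δ / (4 * (R + 1)) * R :=
      mul_le_mul h1 (hFn v hv) (norm_nonneg _) (by positivity)
    have h3 : δ / (4 * (R + 1)) * R ≤ δ / 4 := by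
      rw [div_mul_eq_mul_div, div_le_div_iff₀ (by positivity) (by positivity)]
      nlinarith
    linarith
  set P : E × E → E × E := fun p => (r p.1, r p.2) with hPdef
  have hPm : Measurable P := (hrm.comp measurable_fst).prodMk (hrm.comp measurable_snd)
  have hPF : ∀ p, P p ∈ F ×ˢ F := fun p => Finset.mem_product.2 ⟨hrF _, hrF _⟩
  obtain ⟨n, q, w, hqinj, hwpos, hqF, hwdef, hmap⟩ := discretize_map π hPm (F ×ˢ F) hPF
  have hq1 : ∀ i, (q i).1 ∈ F := fun i => (Finset.mem_product.1 (hqF i)).1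
  have hq2 : ∀ i, (q i).2 ∈ F := fun i => (Finset.mem_product.1 (hqF i)).2
  set gy : E × E → E := fun u => u.1 + τ • u.2 with hgy
  set gz : E × E → E := fun u => u.2 + τ • u.1 with hgz
  have hgym : Measurable gy := measurable_fst.add (measurable_snd.const_smul τ)
  have hgzm : Measurable gz := measurable_snd.add (measurable_fst.const_smul τ)
  have hex : ∀ i, ∃ p : E × E, p.1 ∈ Y ∧ p.2 ∈ Y ∧ P p = q i := by
    intro i
    by_contra hno
    push Not at hno
    have hsub : P ⁻¹' {q i} ⊆ {p | ¬ (p.1 ∈ Y ∧ p.2 ∈ Y)} := by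
      intro p hp hY
      exact hno p hY.1 hY.2 hp
    have hnull : π (P ⁻¹' {q i}) = 0 := measure_mono_null hsub (ae_iff.1 hae)
    have hpos := hwpos i
    rw [hwdef i, hnull] at hpos
    simp at hpos
  have hmapsum : ∀ g : E × E → E, Measurable g →
      π.map (fun p => g (P p)) = ∑ i, ENNReal.ofReal (w i) • Measure.dirac (g (q i)) := by
    intro g hg
    have e1 : π.map (fun p => g (P p)) = (π.map P).map g := (Measure.map_map hg hPm).symm
    rw [e1, hmap, ← Measure.mapₗ_apply_of_measurable hg, map_sum]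
    refine Finset.sum_congr rfl fun i _ => ?_
    rw [map_smul, Measure.mapₗ_apply_of_measurable hg, Measure.map_dirac' hg]
  have hclose : ∀ a ∈ Y, ∀ v ∈ F, ‖a - (r a + τ • v)‖ ≤ δ / 2 := by
    intro a ha v hv
    have e : a - (r a + τ • v) = (a - r a) - τ • v := by abel
    rw [e]
    have h1 : ‖a - r a‖ < δ / 4 := by rw [← dist_eq_norm]; exact hrd a ha
    have h2 := hτv v hv
    have h3 := norm_sub_le (a - r a) (τ • v)
    linarith
  refine ⟨n, fun i => gy (q i), fun i => gz (q i), w, fun p => gy (P p), fun p => gz (P p),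
    ?_, ?_, hwpos, ?_, ?_, ?_, hgym.comp hPm, hgzm.comp hPm, hmapsum gy hgym, hmapsum gz hgzm,
    ?_, ?_, ?_, ?_⟩
  · intro i j hij
    have h := hτinj (q i).1 (hq1 i) (q i).2 (hq2 i) (q j).1 (hq1 j) (q j).2 (hq2 j) hij
    exact hqinj (Prod.ext h.1 h.2)
  · intro i j hij
    have h := hτinj (q i).2 (hq2 i) (q i).1 (hq1 i) (q j).2 (hq2 j) (q j).1 (hq1 j) hij
    exact hqinj (Prod.ext h.2 h.1)
  · have h1 : (π.map P) Set.univ = 1 := by
      rw [Measure.map_apply hPm MeasurableSet.univ]; simp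
    rw [hmap] at h1
    simp only [Measure.coe_finsetSum, Finset.sum_apply, Measure.smul_apply, smul_eq_mul,
      Measure.dirac_apply' _ MeasurableSet.univ, Set.indicator_univ, Pi.one_apply, mul_one] at h1
    have h2 : ENNReal.ofReal (∑ i, w i) = 1 := by
      rw [ENNReal.ofReal_sum_of_nonneg (fun i _ => (hwpos i).le)]; exact h1
    exact ENNReal.ofReal_eq_one.1 h2
  · intro i
    obtain ⟨p, h1, h2, hp⟩ := hex i
    apply Metric.mem_cthickening_of_dist_le _ p.1 δ Y h1
    have e : gy (q i) = r p.1 + τ • r p.2 := by rw [← hp]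
    show dist (gy (q i)) p.1 ≤ δ
    rw [e, dist_comm, dist_eq_norm]
    have := hclose p.1 h1 (r p.2) (hrF _)
    linarith
  · intro i
    obtain ⟨p, h1, h2, hp⟩ := hex i
    apply Metric.mem_cthickening_of_dist_le _ p.2 δ Y h2
    have e : gz (q i) = r p.2 + τ • r p.1 := by rw [← hp]
    show dist (gz (q i)) p.2 ≤ δ
    rw [e, dist_comm, dist_eq_norm]
    have := hclose p.2 h2 (r p.1) (hrF _)
    linarith
  · filter_upwards [hae] with p hp
    have := hclose p.1 hp.1 (r p.2) (hrF _)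
    show ‖p.1 - (r p.1 + τ • r p.2)‖ ≤ δ
    linarith
  · filter_upwards [hae] with p hp
    have := hclose p.2 hp.2 (r p.1) (hrF _)
    show ‖p.2 - (r p.2 + τ • r p.1)‖ ≤ δ
    linarith
  · filter_upwards [hae] with p hp
    show ‖(r p.1 + τ • r p.2) - (r p.2 + τ • r p.1)‖ ≤ ‖p.1 - p.2‖ + δ
    have e : (r p.1 + τ • r p.2) - (r p.2 + τ • r p.1) = (1 - τ) • (r p.1 - r p.2) := by
      rw [sub_smul, one_smul, smul_sub]; abel
    rw [e, norm_smul, Real.norm_eq_abs, abs_of_nonneg (by linarith)]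
    have h1 : ‖p.1 - r p.1‖ < δ / 4 := by rw [← dist_eq_norm]; exact hrd p.1 hp.1
    have h2 : ‖p.2 - r p.2‖ < δ / 4 := by rw [← dist_eq_norm]; exact hrd p.2 hp.2
    have e2 : r p.1 - r p.2 = (p.1 - p.2) - (p.1 - r p.1) + (p.2 - r p.2) := by abel
    have h3 : ‖r p.1 - r p.2‖ ≤ ‖p.1 - p.2‖ + ‖p.1 - r p.1‖ + ‖p.2 - r p.2‖ := by
      rw [e2]
      exact (norm_add_le _ _).trans (add_le_add (norm_sub_le _ _) le_rfl)
    have h4 : (1 - τ) * ‖r p.1 - r p.2‖ ≤ 1 * ‖r p.1 - r p.2‖ :=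
      mul_le_mul_of_nonneg_right (by linarith) (norm_nonneg _)
    linarith
  · have hh : Measurable fun u : E × E => ENNReal.ofReal (‖gy u - gz u‖ ^ 2) :=
      ENNReal.measurable_ofReal.comp ((hgym.sub hgzm).norm.pow_const 2)
    have e1 : ∫⁻ p, ENNReal.ofReal (‖gy (P p) - gz (P p)‖ ^ 2) ∂π
        = ∫⁻ u, ENNReal.ofReal (‖gy u - gz u‖ ^ 2) ∂(π.map P) := (lintegral_map hh hPm).symm
    rw [e1, hmap, lintegral_finsetSum_measure]
    refine Finset.sum_congr rfl fun i _ => ?_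
    rw [lintegral_smul_measure, lintegral_dirac' _ hh, smul_eq_mul]

/-- A coupling whose quadratic cost is within `η` of the quadratic Wasserstein distance. -/
theorem exists_near_optimal_coupling {d : ℕ}
    (μ ν : Measure (EuclideanSpace ℝ (Fin d))) [IsProbabilityMeasure μ] [IsProbabilityMeasure ν]
    {η : ℝ} (hη : 0 < η) :
    ∃ π : Measure (EuclideanSpace ℝ (Fin d) × EuclideanSpace ℝ (Fin d)),
      π.fst = μ ∧ π.snd = ν ∧
      ∫⁻ p, ENNReal.ofReal (‖p.1 - p.2‖ ^ 2) ∂π ≤ (H20.W2 μ ν + ENNReal.ofReal η) ^ 2 := by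
  set Z : ENNReal := ⨅ π : Measure (EuclideanSpace ℝ (Fin d) × EuclideanSpace ℝ (Fin d)),
    ⨅ (_ : π.fst = μ ∧ π.snd = ν), ∫⁻ p, ENNReal.ofReal (‖p.1 - p.2‖ ^ 2) ∂π with hZ
  have hW : H20.W2 μ ν = Z ^ ((1 : ℝ) / 2) := rfl
  by_cases hZtop : Z = ⊤
  · refine ⟨μ.prod ν, Measure.fst_prod, Measure.snd_prod, ?_⟩
    rw [hW, hZtop]
    simp
  · have h1 : Z = (Z ^ ((1 : ℝ) / 2)) ^ 2 := by
      rw [← ENNReal.rpow_natCast, ← ENNReal.rpow_mul]; norm_num
    have h2 : Z ^ ((1 : ℝ) / 2) < Z ^ ((1 : ℝ) / 2) + ENNReal.ofReal η := by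
      apply ENNReal.lt_add_right
      · exact ENNReal.rpow_ne_top_of_nonneg (by norm_num) hZtop
      · rw [Ne, ENNReal.ofReal_eq_zero, not_le]; exact hη
    have hlt : Z < (Z ^ ((1 : ℝ) / 2) + ENNReal.ofReal η) ^ 2 := by
      calc Z = (Z ^ ((1 : ℝ) / 2)) ^ 2 := h1
        _ < (Z ^ ((1 : ℝ) / 2) + ENNReal.ofReal η) ^ 2 :=
          ENNReal.pow_lt_pow_left (by norm_num) h2
    obtain ⟨π, hπ⟩ := iInf_lt_iff.1 hlt
    obtain ⟨hc, hπ'⟩ := iInf_lt_iff.1 hπ
    exact ⟨π, hc.1, hc.2, by rw [hW]; exact hπ'.le⟩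

/-- **Discretisation lemma (piece E1).**  Two probability measures concentrated on a compact
set `Y` are approximated in `W₁` by finitely supported measures with matched atoms: a common
index set `Fin n`, injective families of sites `y`, `z` in the closed `δ`-neighbourhood of
`Y`, positive weights `w` of total mass one, such that `∑ wᵢ δ_{yᵢ}` is `δ`-close to `μ`,
`∑ wᵢ δ_{zᵢ}` is `δ`-close to `ν`, and the matched quadratic cost, the square root of
`∑ wᵢ |yᵢ - zᵢ|²`, exceeds the quadratic Wasserstein distance of `μ` and `ν` by at most `δ`. -/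
theorem exists_matched_atoms {d : ℕ} {Y : Set (EuclideanSpace ℝ (Fin d))} (hYc : IsCompact Y)
    (μ ν : Measure (EuclideanSpace ℝ (Fin d))) [IsProbabilityMeasure μ] [IsProbabilityMeasure ν]
    (hμ : ∀ᵐ y ∂μ, y ∈ Y) (hν : ∀ᵐ y ∂ν, y ∈ Y) {δ : ℝ} (hδ : 0 < δ) :
    ∃ (n : ℕ) (y z : Fin n → EuclideanSpace ℝ (Fin d)) (w : Fin n → ℝ),
      Function.Injective y ∧ Function.Injective z ∧ (∀ i, 0 < w i) ∧ (∑ i, w i) = 1 ∧
      (∀ i, y i ∈ Metric.cthickening δ Y) ∧ (∀ i, z i ∈ Metric.cthickening δ Y) ∧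
      H20.W1 μ (∑ i, ENNReal.ofReal (w i) • Measure.dirac (y i)) ≤ ENNReal.ofReal δ ∧
      H20.W1 ν (∑ i, ENNReal.ofReal (w i) • Measure.dirac (z i)) ≤ ENNReal.ofReal δ ∧
      ENNReal.ofReal (Real.sqrt (∑ i, w i * ‖y i - z i‖ ^ 2))
        ≤ H20.W2 μ ν + ENNReal.ofReal δ := by
  have hδ2 : 0 < δ / 2 := half_pos hδ
  obtain ⟨π, hfst, hsnd, hcost⟩ := exists_near_optimal_coupling μ ν hδ2
  have : IsProbabilityMeasure π := ⟨by rw [← Measure.fst_univ, hfst]; exact measure_univ⟩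
  have hae1 : ∀ᵐ p ∂π, p.1 ∈ Y := by
    have h : ∀ᵐ y ∂(π.map Prod.fst), y ∈ Y := by
      have e : π.map Prod.fst = μ := hfst
      rw [e]; exact hμ
    exact ae_of_ae_map measurable_fst.aemeasurable h
  have hae2 : ∀ᵐ p ∂π, p.2 ∈ Y := by
    have h : ∀ᵐ y ∂(π.map Prod.snd), y ∈ Y := by
      have e : π.map Prod.snd = ν := hsnd
      rw [e]; exact hν
    exact ae_of_ae_map measurable_snd.aemeasurable h
  have hae : ∀ᵐ p ∂π, p.1 ∈ Y ∧ p.2 ∈ Y := by
    filter_upwards [hae1, hae2] with p a b using ⟨a, b⟩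
  obtain ⟨n, y, z, w, Φy, Φz, hyinj, hzinj, hwpos, hwsum, hyY, hzY, hΦy, hΦz, hmapy, hmapz,
    hdy, hdz, hdyz, hsum⟩ := exists_atoms_of_coupling hYc π hae hδ2
  have hmono : Metric.cthickening (δ / 2) Y ⊆ Metric.cthickening δ Y :=
    Metric.cthickening_mono (by linarith) Y
  refine ⟨n, y, z, w, hyinj, hzinj, hwpos, hwsum, fun i => hmono (hyY i),
    fun i => hmono (hzY i), ?_, ?_, ?_⟩
  · rw [← hmapy]
    have hm : Measurable fun p : EuclideanSpace ℝ (Fin d) × EuclideanSpace ℝ (Fin d) =>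
        (p.1, Φy p) := measurable_fst.prodMk hΦy
    refine iInf_le_of_le (π.map fun p => (p.1, Φy p)) (iInf_le_of_le ⟨?_, ?_⟩ ?_)
    · rw [Measure.fst, Measure.map_map measurable_fst hm]
      exact hfst
    · rw [Measure.snd, Measure.map_map measurable_snd hm]
      rfl
    · have hmf : Measurable fun u : EuclideanSpace ℝ (Fin d) × EuclideanSpace ℝ (Fin d) =>
          ENNReal.ofReal ‖u.1 - u.2‖ :=
        ENNReal.measurable_ofReal.comp (measurable_fst.sub measurable_snd).norm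
      rw [lintegral_map hmf hm]
      calc ∫⁻ p, ENNReal.ofReal ‖p.1 - Φy p‖ ∂π ≤ ∫⁻ _p, ENNReal.ofReal δ ∂π := by
            refine lintegral_mono_ae ?_
            filter_upwards [hdy] with p hp
            exact ENNReal.ofReal_le_ofReal (hp.trans (by linarith))
        _ = ENNReal.ofReal δ := by simp
  · rw [← hmapz]
    have hm : Measurable fun p : EuclideanSpace ℝ (Fin d) × EuclideanSpace ℝ (Fin d) =>
        (p.2, Φz p) := measurable_snd.prodMk hΦz
    refine iInf_le_of_le (π.map fun p => (p.2, Φz p)) (iInf_le_of_le ⟨?_, ?_⟩ ?_)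
    · rw [Measure.fst, Measure.map_map measurable_fst hm]
      exact hsnd
    · rw [Measure.snd, Measure.map_map measurable_snd hm]
      rfl
    · have hmf : Measurable fun u : EuclideanSpace ℝ (Fin d) × EuclideanSpace ℝ (Fin d) =>
          ENNReal.ofReal ‖u.1 - u.2‖ :=
        ENNReal.measurable_ofReal.comp (measurable_fst.sub measurable_snd).norm
      rw [lintegral_map hmf hm]
      calc ∫⁻ p, ENNReal.ofReal ‖p.2 - Φz p‖ ∂π ≤ ∫⁻ _p, ENNReal.ofReal δ ∂π := by
            refine lintegral_mono_ae ?_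
            filter_upwards [hdz] with p hp
            exact ENNReal.ofReal_le_ofReal (hp.trans (by linarith))
        _ = ENNReal.ofReal δ := by simp
  · -- the quadratic cost
    obtain ⟨CY, hCY⟩ := hYc.isBounded.exists_norm_le
    set R : ℝ := max CY 0 with hR_def
    have hR : 0 ≤ R := le_max_right _ _
    have hbd : ∀ᵐ p ∂π, ‖p.1 - p.2‖ ≤ 2 * R := by
      filter_upwards [hae] with p hp
      have h1 : ‖p.1‖ ≤ R := (hCY _ hp.1).trans (le_max_left _ _)
      have h2 : ‖p.2‖ ≤ R := (hCY _ hp.2).trans (le_max_left _ _)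
      have := norm_sub_le p.1 p.2
      linarith
    have hm : Measurable fun p : EuclideanSpace ℝ (Fin d) × EuclideanSpace ℝ (Fin d) =>
        ‖p.1 - p.2‖ := (measurable_fst.sub measurable_snd).norm
    have hu : Integrable (fun p : EuclideanSpace ℝ (Fin d) × EuclideanSpace ℝ (Fin d) =>
        ‖p.1 - p.2‖) π := by
      refine Integrable.of_bound hm.aestronglyMeasurable (2 * R) ?_
      filter_upwards [hbd] with p hp
      rw [Real.norm_eq_abs, abs_of_nonneg (norm_nonneg _)]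
      exact hp
    have hu2 : Integrable (fun p : EuclideanSpace ℝ (Fin d) × EuclideanSpace ℝ (Fin d) =>
        ‖p.1 - p.2‖ ^ 2) π := by
      refine Integrable.of_bound (hm.pow_const 2).aestronglyMeasurable ((2 * R) ^ 2) ?_
      filter_upwards [hbd] with p hp
      rw [Real.norm_eq_abs, abs_of_nonneg (sq_nonneg _)]
      exact pow_le_pow_left₀ (norm_nonneg _) hp 2
    set X : ℝ := ∫ p, ‖p.1 - p.2‖ ^ 2 ∂π with hX
    have hX0 : 0 ≤ X := integral_nonneg fun p => sq_nonneg _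
    set c : ℝ := δ / 2 with hc
    -- the first moment is at most `√X`
    have hI1 : ∫ p, ‖p.1 - p.2‖ ∂π ≤ Real.sqrt X :=
      (le_abs_self _).trans (Real.abs_le_sqrt (H20.sq_integral_le_integral_sq hbd))
    -- integral of the shifted square
    have hI2 : ∫ p, (‖p.1 - p.2‖ + c) ^ 2 ∂π ≤ (Real.sqrt X + c) ^ 2 := by
      have e1 : (fun p : EuclideanSpace ℝ (Fin d) × EuclideanSpace ℝ (Fin d) =>
          (‖p.1 - p.2‖ + c) ^ 2) = fun p => ‖p.1 - p.2‖ ^ 2 + (2 * c) * ‖p.1 - p.2‖ + c ^ 2 := by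
        ext p; ring
      have e2 : ∫ p : EuclideanSpace ℝ (Fin d) × EuclideanSpace ℝ (Fin d),
          (‖p.1 - p.2‖ ^ 2 + (2 * c) * ‖p.1 - p.2‖ + c ^ 2) ∂π
          = ∫ p : EuclideanSpace ℝ (Fin d) × EuclideanSpace ℝ (Fin d),
            (‖p.1 - p.2‖ ^ 2 + (2 * c) * ‖p.1 - p.2‖) ∂π
            + ∫ _p : EuclideanSpace ℝ (Fin d) × EuclideanSpace ℝ (Fin d), c ^ 2 ∂π :=
        integral_add (hu2.add (hu.const_mul (2 * c))) (integrable_const _)
      have e3 : ∫ p : EuclideanSpace ℝ (Fin d) × EuclideanSpace ℝ (Fin d),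
          (‖p.1 - p.2‖ ^ 2 + (2 * c) * ‖p.1 - p.2‖) ∂π
          = ∫ p : EuclideanSpace ℝ (Fin d) × EuclideanSpace ℝ (Fin d), ‖p.1 - p.2‖ ^ 2 ∂π
            + ∫ p : EuclideanSpace ℝ (Fin d) × EuclideanSpace ℝ (Fin d),
              (2 * c) * ‖p.1 - p.2‖ ∂π :=
        integral_add hu2 (hu.const_mul (2 * c))
      rw [e1, e2, e3, integral_const_mul, integral_const]
      simp only [probReal_univ, one_smul]
      rw [← hX]
      have hs : Real.sqrt X ^ 2 = X := Real.sq_sqrt hX0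
      have hc0 : 0 ≤ c := by rw [hc]; linarith
      nlinarith [mul_le_mul_of_nonneg_left hI1 (by linarith : (0:ℝ) ≤ 2 * c)]
    -- compare the discrete cost with the integral
    have hmY : Measurable fun p : EuclideanSpace ℝ (Fin d) × EuclideanSpace ℝ (Fin d) =>
        ‖p.1 - p.2‖ + c := hm.add_const c
    have hint3 : Integrable (fun p : EuclideanSpace ℝ (Fin d) × EuclideanSpace ℝ (Fin d) =>
        (‖p.1 - p.2‖ + c) ^ 2) π := by
      refine Integrable.of_bound (hmY.pow_const 2).aestronglyMeasurable ((2 * R + c) ^ 2) ?_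
      filter_upwards [hbd] with p hp
      rw [Real.norm_eq_abs, abs_of_nonneg (sq_nonneg _)]
      have hc0 : 0 ≤ c := by rw [hc]; linarith
      exact pow_le_pow_left₀ (by positivity) (by linarith) 2
    have hle1 : ENNReal.ofReal (∑ i, w i * ‖y i - z i‖ ^ 2)
        ≤ ENNReal.ofReal ((Real.sqrt X + c) ^ 2) := by
      rw [ENNReal.ofReal_sum_of_nonneg
        (fun i _ => mul_nonneg (hwpos i).le (sq_nonneg _))]
      have e : ∑ i, ENNReal.ofReal (w i * ‖y i - z i‖ ^ 2)
          = ∑ i, ENNReal.ofReal (w i) * ENNReal.ofReal (‖y i - z i‖ ^ 2) :=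
        Finset.sum_congr rfl fun i _ => ENNReal.ofReal_mul (hwpos i).le
      rw [e, hsum]
      calc ∫⁻ p, ENNReal.ofReal (‖Φy p - Φz p‖ ^ 2) ∂π
          ≤ ∫⁻ p, ENNReal.ofReal ((‖p.1 - p.2‖ + c) ^ 2) ∂π := by
            refine lintegral_mono_ae ?_
            filter_upwards [hdyz] with p hp
            exact ENNReal.ofReal_le_ofReal (pow_le_pow_left₀ (norm_nonneg _) hp 2)
        _ = ENNReal.ofReal (∫ p, (‖p.1 - p.2‖ + c) ^ 2 ∂π) :=
            (ofReal_integral_eq_lintegral_ofReal hint3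
              (Filter.Eventually.of_forall fun p => sq_nonneg _)).symm
        _ ≤ ENNReal.ofReal ((Real.sqrt X + c) ^ 2) := ENNReal.ofReal_le_ofReal hI2
    have hc0 : 0 ≤ c := by rw [hc]; linarith
    have hsq0 : 0 ≤ Real.sqrt X + c := add_nonneg (Real.sqrt_nonneg _) hc0
    have hle2 : ∑ i, w i * ‖y i - z i‖ ^ 2 ≤ (Real.sqrt X + c) ^ 2 :=
      (ENNReal.ofReal_le_ofReal_iff (sq_nonneg _)).1 hle1
    have hle3 : Real.sqrt (∑ i, w i * ‖y i - z i‖ ^ 2) ≤ Real.sqrt X + c :=
      (Real.sqrt_le_left hsq0).2 hle2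
    -- the coupling cost in terms of `X`
    have hcostX : ENNReal.ofReal X ≤ (H20.W2 μ ν + ENNReal.ofReal c) ^ 2 := by
      have e : ∫⁻ p, ENNReal.ofReal (‖p.1 - p.2‖ ^ 2) ∂π = ENNReal.ofReal X :=
        (ofReal_integral_eq_lintegral_ofReal hu2
          (Filter.Eventually.of_forall fun p => sq_nonneg _)).symm
      rw [← e]; exact hcost
    have hsqX : ENNReal.ofReal (Real.sqrt X) ≤ H20.W2 μ ν + ENNReal.ofReal c := by
      rw [← ENNReal.pow_le_pow_left_iff (n := 2) (by norm_num),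
        ← ENNReal.ofReal_pow (Real.sqrt_nonneg _), Real.sq_sqrt hX0]
      exact hcostX
    calc ENNReal.ofReal (Real.sqrt (∑ i, w i * ‖y i - z i‖ ^ 2))
        ≤ ENNReal.ofReal (Real.sqrt X + c) := ENNReal.ofReal_le_ofReal hle3
      _ = ENNReal.ofReal (Real.sqrt X) + ENNReal.ofReal c :=
          ENNReal.ofReal_add (Real.sqrt_nonneg _) hc0
      _ ≤ H20.W2 μ ν + ENNReal.ofReal c + ENNReal.ofReal c := by gcongr
      _ = H20.W2 μ ν + ENNReal.ofReal δ := by
          rw [add_assoc, ← ENNReal.ofReal_add hc0 hc0, hc]; congr 2; ring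

end Vale.Agent.H2
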