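import Vale.Agent.H2.LatticeSpace

namespace Vale.Agent.H2

/-- The right translation by `h ∈ SL(n, ℝ)` on `X_n = SL_n(ℤ)\SL_n(ℝ)`:
the class of `g` is sent to the class of `g * h`. -/
def rightMul (n : ℕ) (h : Matrix.SpecialLinearGroup (Fin n) ℝ) : LatticeSpace n → LatticeSpace n :=
  Quotient.map' (fun g => g * h) (by
    intro a b hab
    obtain ⟨γ, hγ⟩ := hab
    refine ⟨γ, ?_⟩
    change (γ : Matrix.SpecialLinearGroup (Fin n) ℝ) * (b * h) = a * h
    rw [← mul_assoc]
    exact congrArg (· * h) hγ)

/-- The union of the torus orbits `Λ_I w A_n` of the packet of the maximal order of a number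
field `K` with respect to the ring homomorphisms `σ_1, …, σ_n : K → ℝ`: the set of all classes
of `g ∈ SL(n, ℝ)` whose rows span over `ℤ` the lattice
`{(c σ_j(y) w_j a_j)_j : y ∈ I}`, where `I` is a fractional ideal of the ring of integers of `K`, `c` is a real
scalar (necessarily the covolume normalisation), `w` is a vector of signs and `a` is a vector
of positive reals with product one. -/
def packetSet {n : ℕ} {K : Type*} [Field K] [NumberField K] (σ : Fin n → K →+* ℝ) :
    Set (LatticeSpace n) :=
  {x | ∃ (I : FractionalIdeal (nonZeroDivisors (NumberField.RingOfIntegers K)) K) (c : ℝ)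
      (w a : Fin n → ℝ)
      (g : Matrix.SpecialLinearGroup (Fin n) ℝ),
      (∀ j, w j = 1 ∨ w j = -1) ∧ (∀ j, 0 < a j) ∧ ∏ j, a j = 1 ∧
      (Submodule.span ℤ (Set.range g.val.row) : Set (Fin n → ℝ))
        = (fun (y : K) (j : Fin n) => c * σ j y * w j * a j) '' (I : Set K) ∧
      x = Quotient.mk (MulAction.orbitRel (intSL n) (Matrix.SpecialLinearGroup (Fin n) ℝ)) g}

end Vale.Agent.H2
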