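import Mathlib

/-!
# Real roots of shifted products of linear factors

If the points `a i` are `2δ`-separated and `|c| < δ ^ m`, then for every `j < m` the equation
`∏ i < m, (x - a i) = c` has a solution in the interval `(a j - δ, a j + δ)`.
-/

open Finset

namespace Vale.Agent.H2

theorem abs_prod_sub_ge (a : ℕ → ℝ) (δ : ℝ) (hδ : 0 < δ) (m : ℕ) (x : ℝ)
    (hx : ∀ i, i < m → δ ≤ |x - a i|) : δ ^ m ≤ |∏ i ∈ range m, (x - a i)| := by
  rw [Finset.abs_prod]
  calc δ ^ m = ∏ _i ∈ range m, δ := by rw [prod_const, card_range]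
    _ ≤ ∏ i ∈ range m, |x - a i| :=
      prod_le_prod (fun i _ => hδ.le) (fun i hi => hx i (mem_range.mp hi))

theorem prod_mul_prod_neg (a : ℕ → ℝ) (δ : ℝ) (hδ : 0 < δ)
    (hgap : ∀ i j, i ≠ j → 2 * δ ≤ |a i - a j|) (m j : ℕ) (hj : j < m) :
    (∏ i ∈ range m, (a j - δ - a i)) * (∏ i ∈ range m, (a j + δ - a i)) < 0 := by
  rw [← prod_mul_distrib]
  rw [← mul_prod_erase (range m) _ (mem_range.mpr hj)]
  have h1 : (a j - δ - a j) * (a j + δ - a j) = -(δ ^ 2) := by ring
  rw [h1]
  have h2 : 0 < ∏ i ∈ (range m).erase j, (a j - δ - a i) * (a j + δ - a i) := by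
    apply prod_pos
    intro i hi
    have hij : j ≠ i := (ne_of_mem_erase hi).symm
    have h3 := hgap j i hij
    have h4 : (a j - δ - a i) * (a j + δ - a i) = (a j - a i) ^ 2 - δ ^ 2 := by ring
    rw [h4]
    have h5 : (2 * δ) ^ 2 ≤ (a j - a i) ^ 2 := by
      rw [← sq_abs (a j - a i)]
      exact pow_le_pow_left₀ (by positivity) h3 2
    nlinarith
  nlinarith [sq_pos_of_pos hδ]

/-- The real-root lemma. -/
theorem exists_root_near (a : ℕ → ℝ) (δ : ℝ) (hδ : 0 < δ)
    (hgap : ∀ i j, i ≠ j → 2 * δ ≤ |a i - a j|) (m : ℕ) (c : ℝ) (hc : |c| < δ ^ m)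
    (j : ℕ) (hj : j < m) :
    ∃ x, a j - δ < x ∧ x < a j + δ ∧ ∏ i ∈ range m, (x - a i) = c := by
  set F : ℝ → ℝ := fun x => ∏ i ∈ range m, (x - a i) with hF
  have hcont : Continuous F := continuous_finsetProd _ (fun i _ => by fun_prop)
  have hL : δ ^ m ≤ |F (a j - δ)| := by
    apply abs_prod_sub_ge a δ hδ m
    intro i hi
    by_cases hij : i = j
    · subst hij
      have : a i - δ - a i = -δ := by ring
      rw [this, abs_neg, abs_of_pos hδ]
    · have h3 := hgap j i (Ne.symm hij)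
      have h4 : |a j - a i| ≤ |a j - δ - a i| + δ := by
        have : a j - a i = (a j - δ - a i) + δ := by ring
        calc |a j - a i| = |(a j - δ - a i) + δ| := by rw [← this]
          _ ≤ |a j - δ - a i| + |δ| := abs_add_le _ _
          _ = |a j - δ - a i| + δ := by rw [abs_of_pos hδ]
      linarith
  have hR : δ ^ m ≤ |F (a j + δ)| := by
    apply abs_prod_sub_ge a δ hδ m
    intro i hi
    by_cases hij : i = j
    · subst hij
      have : a i + δ - a i = δ := by ring
      rw [this, abs_of_pos hδ]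
    · have h3 := hgap j i (Ne.symm hij)
      have h4 : |a j - a i| ≤ |a j + δ - a i| + δ := by
        have : a j - a i = (a j + δ - a i) + (-δ) := by ring
        calc |a j - a i| = |(a j + δ - a i) + (-δ)| := by rw [← this]
          _ ≤ |a j + δ - a i| + |(-δ)| := abs_add_le _ _
          _ = |a j + δ - a i| + δ := by rw [abs_neg, abs_of_pos hδ]
      linarith
  have hneg : F (a j - δ) * F (a j + δ) < 0 := prod_mul_prod_neg a δ hδ hgap m j hj
  have hlt : a j - δ ≤ a j + δ := by linarith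
  have hc' := abs_lt.mp hc
  rcases lt_or_gt_of_ne (show F (a j - δ) ≠ 0 by
    intro h0; rw [h0, zero_mul] at hneg; exact lt_irrefl _ hneg) with hneg1 | hpos1
  · -- F left < 0, F right > 0
    have hpos2 : 0 < F (a j + δ) := by
      by_contra h
      have : F (a j + δ) ≤ 0 := not_lt.mp h
      nlinarith
    rw [abs_of_neg hneg1] at hL
    rw [abs_of_pos hpos2] at hR
    have hmem : c ∈ Set.Ioo (F (a j - δ)) (F (a j + δ)) := ⟨by linarith, by linarith⟩
    obtain ⟨x, hx, hxc⟩ := intermediate_value_Ioo hlt hcont.continuousOn hmem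
    exact ⟨x, hx.1, hx.2, hxc⟩
  · have hneg2 : F (a j + δ) < 0 := by
      by_contra h
      have : 0 ≤ F (a j + δ) := not_lt.mp h
      nlinarith
    rw [abs_of_pos hpos1] at hL
    rw [abs_of_neg hneg2] at hR
    have hmem : c ∈ Set.Ioo (F (a j + δ)) (F (a j - δ)) := ⟨by linarith, by linarith⟩
    obtain ⟨x, hx, hxc⟩ := intermediate_value_Ioo' hlt hcont.continuousOn hmem
    exact ⟨x, hx.1, hx.2, hxc⟩

end Vale.Agent.H2
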