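import Vale.Agent.H2.TorusMain
import Vale.Agent.H2.PacketDefs
import Vale.Agent.H2.Biquad3

open Matrix Topology MeasureTheory NumberField

namespace Vale.Agent.H2

variable {n : ℕ}

theorem rightMul_mk (h g : Matrix.SpecialLinearGroup (Fin n) ℝ) :
    rightMul n h (Quotient.mk _ g) = Quotient.mk _ (g * h) := rfl

theorem continuous_rightMul (h : Matrix.SpecialLinearGroup (Fin n) ℝ) :
    Continuous (rightMul n h) :=
  Continuous.quotient_map' (continuous_mul_const h) _

instance secondCountable_matrix (n : ℕ) :
    SecondCountableTopology (Matrix (Fin n) (Fin n) ℝ) :=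
  inferInstanceAs (SecondCountableTopology (Fin n → Fin n → ℝ))

instance secondCountable_SL (n : ℕ) :
    SecondCountableTopology (Matrix.SpecialLinearGroup (Fin n) ℝ) :=
  Matrix.SpecialLinearGroup.isClosedEmbedding_val.isEmbedding.secondCountableTopology

instance secondCountable_latticeSpace (n : ℕ) : SecondCountableTopology (LatticeSpace n) :=
  ContinuousConstSMul.secondCountableTopology

/-- A probability measure on `X_n` invariant under all right translations is positive on
nonempty open sets. -/
theorem measure_pos_of_invariant [MeasurableSpace (LatticeSpace n)] [BorelSpace (LatticeSpace n)]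
    (m : Measure (LatticeSpace n)) [IsProbabilityMeasure m]
    (hinv : ∀ h : Matrix.SpecialLinearGroup (Fin n) ℝ, Measure.map (rightMul n h) m = m)
    (U : Set (LatticeSpace n)) (hU : IsOpen U) (hne : U.Nonempty) : 0 < m U := by
  by_contra h0
  have hU0 : m U = 0 := by simpa using h0
  have hpre : ∀ h : Matrix.SpecialLinearGroup (Fin n) ℝ, m (rightMul n h ⁻¹' U) = 0 := by
    intro h
    have h1 : Measure.map (rightMul n h) m U = m U := by rw [hinv h]
    rw [Measure.map_apply (continuous_rightMul h).measurable hU.measurableSet] at h1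
    rw [h1, hU0]
  have hcover : (⋃ h : Matrix.SpecialLinearGroup (Fin n) ℝ, rightMul n h ⁻¹' U) = Set.univ := by
    obtain ⟨u, hu⟩ := hne
    ext x
    simp only [Set.mem_iUnion, Set.mem_preimage, Set.mem_univ, iff_true]
    induction x using Quotient.inductionOn with
    | _ g =>
      induction u using Quotient.inductionOn with
      | _ g' =>
        refine ⟨g⁻¹ * g', ?_⟩
        rw [rightMul_mk, mul_inv_cancel_left]
        exact hu
  obtain ⟨T, hTc, hT⟩ := TopologicalSpace.isOpen_iUnion_countable
    (fun h : Matrix.SpecialLinearGroup (Fin n) ℝ => rightMul n h ⁻¹' U)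
    (fun h => hU.preimage (continuous_rightMul h))
  have huniv : m Set.univ = 0 := by
    rw [← hcover, ← hT]
    exact (measure_biUnion_null_iff hTc).mpr fun h _ => hpre h
  simp at huniv

end Vale.Agent.H2

namespace Vale.Agent.H2

variable {n : ℕ}

open Polynomial in
/-- Packets of maximal orders of fields containing a square root of two lie in the bad set. -/
theorem packetSet_subset_of_sqrt_two {K : Type} [Field K] [NumberField K] (θ : K)
    (hθ : θ ^ 2 = 2) (C : Set (LatticeSpace n))
    (hC : ∀ (K : Type) [Field K] (θ : K), Polynomial.aeval θ (X ^ 2 - Polynomial.C 2 : ℤ[X]) = 0 →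
        ∀ (σ : Fin n → K →+* ℝ) (I : AddSubgroup K), (∀ x ∈ I, θ * x ∈ I) →
        ∀ (c : ℝ) (w a : Fin n → ℝ) (g : Matrix.SpecialLinearGroup (Fin n) ℝ),
          (Submodule.span ℤ (Set.range g.val.row) : Set (Fin n → ℝ))
            = (fun (x : K) (j : Fin n) => c * σ j x * w j * a j) '' (I : Set K) →
          Quotient.mk (MulAction.orbitRel (intSL n) (Matrix.SpecialLinearGroup (Fin n) ℝ)) g ∈ C)
    (σ : Fin n → K →+* ℝ) : packetSet σ ⊆ C := by
  rintro x ⟨I, c, w, a, g, -, -, -, hg, rfl⟩
  have hθint : IsIntegral ℤ θ := by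
    refine IsIntegral.of_pow (n := 2) (by norm_num) ?_
    rw [hθ]
    exact isIntegral_algebraMap (x := (2 : ℤ)) |>.map (Algebra.ofId ℤ K) |> fun h => by simpa using h
  refine hC K θ (by rw [map_sub, map_pow, aeval_X, aeval_C, hθ]; simp) σ (I : Submodule (𝓞 K) K).toAddSubgroup ?_ c w a g hg
  intro y hy
  have h1 : (⟨θ, hθint⟩ : 𝓞 K) • y ∈ (I : Submodule (𝓞 K) K) := Submodule.smul_mem _ _ hy
  rw [Algebra.smul_def] at h1
  exact h1

end Vale.Agent.H2
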