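import Vale.Agent.H2.TorusB
import Vale.Agent.H2.CompField

/-!
# P007: counterexample sequences in every composite degree
-/

open Matrix Topology MeasureTheory NumberField Polynomial

namespace Vale.Agent.H2

variable {n : ℕ}

/-- Packets of maximal orders of fields containing an integral root of `p` lie in the bad set
attached to `p`. -/
theorem packetSet_subset_of_integral_root {K : Type} [Field K] [NumberField K] (p : ℤ[X]) (θ : K)
    (hθ : aeval θ p = 0) (hθint : IsIntegral ℤ θ) (C : Set (LatticeSpace n))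
    (hC : ∀ (K : Type) [Field K] (θ : K), Polynomial.aeval θ p = 0 →
        ∀ (σ : Fin n → K →+* ℝ) (I : AddSubgroup K), (∀ x ∈ I, θ * x ∈ I) →
        ∀ (c : ℝ) (w a : Fin n → ℝ) (g : Matrix.SpecialLinearGroup (Fin n) ℝ),
          (Submodule.span ℤ (Set.range g.val.row) : Set (Fin n → ℝ))
            = (fun (x : K) (j : Fin n) => c * σ j x * w j * a j) '' (I : Set K) →
          Quotient.mk (MulAction.orbitRel (intSL n) (Matrix.SpecialLinearGroup (Fin n) ℝ)) g ∈ C)
    (σ : Fin n → K →+* ℝ) : packetSet σ ⊆ C := by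
  rintro x ⟨I, c, w, a, g, -, -, -, hg, rfl⟩
  refine hC K θ hθ σ (I : Submodule (𝓞 K) K).toAddSubgroup ?_ c w a g hg
  intro y hy
  have h1 : (⟨θ, hθint⟩ : 𝓞 K) • y ∈ (I : Submodule (𝓞 K) K) := Submodule.smul_mem _ _ hy
  rw [Algebra.smul_def] at h1
  exact h1

/-- For every bound there is a prime `q ≥ 3` above it not dividing `g_d(2d+2)`. -/
theorem exists_good_prime (d : ℕ) (hd : 2 ≤ d) (i : ℕ) :
    ∃ q : ℕ, q.Prime ∧ q ≠ 2 ∧ i ≤ q ∧ ¬ (q : ℤ) ∣ (gP d).eval (2 * (d : ℤ) + 2) := by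
  set G : ℤ := (gP d).eval (2 * (d : ℤ) + 2) with hG
  have hG0 : G ≠ 0 := gP_no_int_root d hd _
  obtain ⟨q, hqge, hq⟩ := Nat.exists_infinite_primes (i + G.natAbs + 3)
  refine ⟨q, hq, by omega, by omega, ?_⟩
  intro hdvd
  have h1 : q ∣ G.natAbs := Int.natCast_dvd.mp hdvd
  have h2 : q ≤ G.natAbs := Nat.le_of_dvd (Int.natAbs_pos.mpr hG0) h1
  omega

/-- Counterexample sequences in every degree `d * m` with `d, m ≥ 2`. -/
theorem torus_counterexample_composite (d m : ℕ) (hd : 2 ≤ d) (hm : 2 ≤ m) :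
    ∃ (F : ℕ → IntermediateField ℚ ℝ) (_ : ∀ i, NumberField (F i)),
      (∀ i, IsTotallyReal (F i)) ∧ (∀ i, Module.finrank ℚ (F i) = d * m) ∧
      Filter.Tendsto (fun i => |discr (F i)|) Filter.atTop Filter.atTop ∧
      ∃ f : LatticeSpace (d * m) → ℝ, Continuous f ∧ HasCompactSupport f ∧
        (∀ [MeasurableSpace (LatticeSpace (d * m))] [BorelSpace (LatticeSpace (d * m))]
            (μ : Measure (LatticeSpace (d * m))) [IsProbabilityMeasure μ],
            (∀ h : Matrix.SpecialLinearGroup (Fin (d * m)) ℝ,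
              Measure.map (rightMul (d * m) h) μ = μ) → 0 < ∫ x, f x ∂μ) ∧
        (∀ (i : ℕ) (σ : Fin (d * m) → (F i) →+* ℝ) [MeasurableSpace (LatticeSpace (d * m))]
            [BorelSpace (LatticeSpace (d * m))] (μ : Measure (LatticeSpace (d * m))),
            μ {x | x ∉ packetSet σ} = 0 → ∫ x, f x ∂μ = 0) := by
  obtain ⟨C, f, -, -, hfc, hfs, -, -, -, ha, hb, hc⟩ :=
    torus_subfield_obstruction (d * m) (by positivity) (gP d) (gP_ne_zero d hd)
      (gP_no_int_root d hd)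
  have hq : ∀ i : ℕ, ∃ q : ℕ, q.Prime ∧ q ≠ 2 ∧ i ≤ q ∧
      ¬ (q : ℤ) ∣ (gP d).eval (2 * (d : ℤ) + 2) := exists_good_prime d hd
  choose q hq1 hq2 hq3 hq4 using hq
  have hF := fun i => exists_field d m (q i) hd hm (hq1 i) (hq2 i) (hq4 i)
  choose F hNF hTR hfr hdisc β hβ using hF
  refine ⟨F, hNF, hTR, hfr, ?_, f, hfc, hfs, ?_, ?_⟩
  · refine Filter.tendsto_atTop_mono (fun i => ?_) tendsto_natCast_atTop_atTop
    have hne : discr (F i) ≠ 0 := discr_ne_zero (F i)
    have h1 : ((q i : ℕ) : ℤ) ≤ |discr (F i)| :=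
      Int.le_of_dvd (abs_pos.mpr hne) ((dvd_abs _ _).mpr (hdisc i))
    have h2 : ((i : ℕ) : ℤ) ≤ ((q i : ℕ) : ℤ) := by exact_mod_cast hq3 i
    exact le_trans h2 h1
  · intro _ _ μ _ hinv
    exact hc μ (measure_pos_of_invariant μ hinv)
  · intro i σ _ _ μ hμ
    have hint : IsIntegral ℤ (β i) :=
      ⟨gP d, gP_monic d (by omega), by rw [← aeval_def]; exact hβ i⟩
    have hsub : packetSet σ ⊆ C :=
      packetSet_subset_of_integral_root (gP d) (β i) (hβ i) hint C ha σ
    refine hb μ (measure_mono_null ?_ hμ)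
    intro x hx hxp
    exact hx (hsub hxp)

/-- Counterexample sequences in every composite degree. -/
theorem torus_counterexample_of_composite (n : ℕ) (hn : 4 ≤ n) (hcomp : ¬ n.Prime) :
    ∃ (F : ℕ → IntermediateField ℚ ℝ) (_ : ∀ i, NumberField (F i)),
      (∀ i, IsTotallyReal (F i)) ∧ (∀ i, Module.finrank ℚ (F i) = n) ∧
      Filter.Tendsto (fun i => |discr (F i)|) Filter.atTop Filter.atTop ∧
      ∃ f : LatticeSpace n → ℝ, Continuous f ∧ HasCompactSupport f ∧
        (∀ [MeasurableSpace (LatticeSpace n)] [BorelSpace (LatticeSpace n)]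
            (μ : Measure (LatticeSpace n)) [IsProbabilityMeasure μ],
            (∀ h : Matrix.SpecialLinearGroup (Fin n) ℝ,
              Measure.map (rightMul n h) μ = μ) → 0 < ∫ x, f x ∂μ) ∧
        (∀ (i : ℕ) (σ : Fin n → (F i) →+* ℝ) [MeasurableSpace (LatticeSpace n)]
            [BorelSpace (LatticeSpace n)] (μ : Measure (LatticeSpace n)),
            μ {x | x ∉ packetSet σ} = 0 → ∫ x, f x ∂μ = 0) := by
  obtain ⟨d, ⟨m, rfl⟩, hd, hlt⟩ := Nat.exists_dvd_of_not_prime2 (by omega) hcomp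
  have hm : 2 ≤ m := by
    by_contra h
    have : m ≤ 1 := by omega
    have : d * m ≤ d * 1 := Nat.mul_le_mul_left d this
    omega
  exact torus_counterexample_composite d m hd hm

end Vale.Agent.H2
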