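import Vale.Agent.H2.LatticeSpace

/-!
# Subfield obstruction for torus packets: the matrix-level core

For a real vector `d : Fin n → ℝ` we consider the set `stableSet d` of `g ∈ SL(n, ℝ)` such that
`g * diagonal d = M * g` for an integer matrix `M` (equivalently the lattice `ℤⁿ g` spanned by the
rows of `g` is mapped into itself by the diagonal matrix `diagonal d`).
-/

open Matrix Topology

namespace Vale.Agent.H2

variable {n : ℕ}

/-- The set of `g ∈ SL(n, ℝ)` for which `g * diagonal d * g⁻¹` is an integer matrix. -/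
def stableSet (d : Fin n → ℝ) : Set (Matrix.SpecialLinearGroup (Fin n) ℝ) :=
  {g | ∃ M : Matrix (Fin n) (Fin n) ℤ,
    g.val * diagonal d = (Int.castRingHom ℝ).mapMatrix M * g.val}

theorem isClosed_range_intCast_matrix :
    IsClosed (Set.range fun M : Matrix (Fin n) (Fin n) ℤ => (Int.castRingHom ℝ).mapMatrix M) :=
  (Int.isClosedEmbedding_coe_real.matrix_map (m := Fin n) (n := Fin n)).isClosed_range

theorem val_mul_val_inv (g : Matrix.SpecialLinearGroup (Fin n) ℝ) : g.val * (g⁻¹).val = 1 := by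
  have := Matrix.SpecialLinearGroup.coe_mul g g⁻¹
  rw [mul_inv_cancel] at this
  exact this.symm

theorem val_inv_mul_val (g : Matrix.SpecialLinearGroup (Fin n) ℝ) : (g⁻¹).val * g.val = 1 := by
  have := Matrix.SpecialLinearGroup.coe_mul g⁻¹ g
  rw [inv_mul_cancel] at this
  exact this.symm

theorem stableSet_eq_preimage (d : Fin n → ℝ) :
    stableSet d = (fun g : Matrix.SpecialLinearGroup (Fin n) ℝ => g.val * diagonal d * (g⁻¹).val) ⁻¹'
      (Set.range fun M : Matrix (Fin n) (Fin n) ℤ => (Int.castRingHom ℝ).mapMatrix M) := by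
  ext g
  simp only [stableSet, Set.mem_preimage, Set.mem_range]
  constructor
  · rintro ⟨M, hM⟩
    refine ⟨M, ?_⟩
    rw [hM, Matrix.mul_assoc, val_mul_val_inv, Matrix.mul_one]
  · rintro ⟨M, hM⟩
    refine ⟨M, ?_⟩
    rw [hM, Matrix.mul_assoc, val_inv_mul_val, Matrix.mul_one]

theorem isClosed_stableSet (d : Fin n → ℝ) : IsClosed (stableSet d) := by
  rw [stableSet_eq_preimage]
  refine isClosed_range_intCast_matrix.preimage ?_
  have hc1 : Continuous fun g : Matrix.SpecialLinearGroup (Fin n) ℝ => g.val :=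
    continuous_subtype_val
  have hc2 : Continuous fun g : Matrix.SpecialLinearGroup (Fin n) ℝ => (g⁻¹).val :=
    continuous_subtype_val.comp continuous_inv
  exact (hc1.mul continuous_const).mul hc2

theorem isClosed_intSL (n : ℕ) : IsClosed (intSL n : Set (Matrix.SpecialLinearGroup (Fin n) ℝ)) := by
  have h : IsClosedEmbedding (Matrix.SpecialLinearGroup.map (n := Fin n) (Int.castRingHom ℝ)) :=
    Topology.IsClosedEmbedding.specialLinearGroup_map (n := Fin n) (f := Int.castRingHom ℝ)
      Int.isClosedEmbedding_coe_real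
  exact h.isClosed_range

/-- `stableSet d` is invariant under left multiplication by `SL(n, ℤ)`. -/
theorem mul_mem_stableSet (d : Fin n → ℝ) {γ g : Matrix.SpecialLinearGroup (Fin n) ℝ}
    (hγ : γ ∈ intSL n) (hg : g ∈ stableSet d) : γ * g ∈ stableSet d := by
  obtain ⟨γ₀, rfl⟩ := hγ
  obtain ⟨M, hM⟩ := hg
  refine ⟨γ₀.val * M * (γ₀⁻¹).val, ?_⟩
  have h1 : (Matrix.SpecialLinearGroup.map (Int.castRingHom ℝ) γ₀).val
      = (Int.castRingHom ℝ).mapMatrix γ₀.val := rfl
  have h2 : (γ₀⁻¹).val * γ₀.val = 1 := by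
    have := Matrix.SpecialLinearGroup.coe_mul γ₀⁻¹ γ₀
    rw [inv_mul_cancel] at this
    exact this.symm
  have h3 : (Int.castRingHom ℝ).mapMatrix (γ₀⁻¹).val * (Int.castRingHom ℝ).mapMatrix γ₀.val = 1 := by
    rw [← map_mul, h2, map_one]
  rw [Matrix.SpecialLinearGroup.coe_mul, h1, map_mul, map_mul]
  calc (Int.castRingHom ℝ).mapMatrix γ₀.val * g.val * diagonal d
      = (Int.castRingHom ℝ).mapMatrix γ₀.val * (g.val * diagonal d) := by rw [Matrix.mul_assoc]
    _ = (Int.castRingHom ℝ).mapMatrix γ₀.val * ((Int.castRingHom ℝ).mapMatrix M * g.val) := by rw [hM]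
    _ = (Int.castRingHom ℝ).mapMatrix γ₀.val * (Int.castRingHom ℝ).mapMatrix M *
          ((Int.castRingHom ℝ).mapMatrix (γ₀⁻¹).val * (Int.castRingHom ℝ).mapMatrix γ₀.val) * g.val := by
        rw [h3, Matrix.mul_one, Matrix.mul_assoc]
    _ = (Int.castRingHom ℝ).mapMatrix γ₀.val * (Int.castRingHom ℝ).mapMatrix M *
          (Int.castRingHom ℝ).mapMatrix (γ₀⁻¹).val * ((Int.castRingHom ℝ).mapMatrix γ₀.val * g.val) := by
        simp only [Matrix.mul_assoc]

end Vale.Agent.H2
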