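import Vale.Agent.H2.TorusCore

open Matrix Topology

namespace Vale.Agent.H2

variable {n : ℕ}

theorem transvection_mul_diagonal (d : Fin n → ℝ) (i j : Fin n) (s : ℝ) :
    transvection i j s * diagonal d
      = diagonal d * transvection i j s + Matrix.single i j (s * (d j - d i)) := by
  ext a b
  simp only [Matrix.mul_diagonal, Matrix.diagonal_mul, Matrix.add_apply, transvection,
    Matrix.one_apply, Matrix.single_apply]
  by_cases ha : i = a <;> by_cases hb : j = b <;> by_cases hab : a = b <;>
    simp_all <;> ring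

theorem mul_single_mul_apply (A B : Matrix (Fin n) (Fin n) ℝ) (i j k l : Fin n) (x : ℝ) :
    (A * Matrix.single i j x * B) k l = A k i * x * B j l := by
  rw [Matrix.mul_apply, Finset.sum_eq_single j]
  · rw [Matrix.mul_single_apply_same]
  · intro b _ hb
    rw [Matrix.mul_single_apply_of_ne x i j k b hb A, zero_mul]
  · intro h
    exact absurd (Finset.mem_univ j) h

/-- The transvection as an element of `SL(n, ℝ)`. -/
def transvSL (i j : Fin n) (h : i ≠ j) (s : ℝ) : Matrix.SpecialLinearGroup (Fin n) ℝ :=
  ⟨transvection i j s, det_transvection_of_ne i j h s⟩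

theorem continuous_transvSL (i j : Fin n) (h : i ≠ j) : Continuous (transvSL i j h) := by
  refine Continuous.subtype_mk ?_ _
  refine continuous_matrix fun a b => ?_
  simp only [transvection, Matrix.add_apply, Matrix.single_apply]
  by_cases hab : i = a ∧ j = b
  · simp only [hab, and_self, if_true]
    exact continuous_const.add continuous_id
  · simp only [hab, if_false]
    exact continuous_const

theorem transvSL_zero (i j : Fin n) (h : i ≠ j) : transvSL i j h 0 = 1 := by
  apply Subtype.ext
  exact transvection_zero i j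

theorem exists_col_ne_zero (g : Matrix.SpecialLinearGroup (Fin n) ℝ) (i : Fin n) :
    ∃ k, g.val k i ≠ 0 := by
  by_contra hcon
  push Not at hcon
  have h1 : ((g⁻¹).val * g.val) i i = 1 := by rw [val_inv_mul_val, Matrix.one_apply_eq]
  rw [Matrix.mul_apply] at h1
  simp [hcon] at h1

theorem exists_inv_row_ne_zero (g : Matrix.SpecialLinearGroup (Fin n) ℝ) (j : Fin n) :
    ∃ l, (g⁻¹).val j l ≠ 0 := by
  by_contra hcon
  push Not at hcon
  have h1 : ((g⁻¹).val * g.val) j j = 1 := by rw [val_inv_mul_val, Matrix.one_apply_eq]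
  rw [Matrix.mul_apply] at h1
  simp [hcon] at h1

/-- Key computation: if `g` and `g * transvection i j s` both lie in `stableSet d`, then
`s * (d j - d i) * g k i * g⁻¹ j l` is an integer for all `k, l`. -/
theorem int_entry_of_mem_stableSet (d : Fin n → ℝ) (i j : Fin n) (h : i ≠ j) (s : ℝ)
    (g : Matrix.SpecialLinearGroup (Fin n) ℝ) (hg : g ∈ stableSet d)
    (hgs : g * transvSL i j h s ∈ stableSet d) (k l : Fin n) :
    ∃ z : ℤ, (z : ℝ) = g.val k i * (s * (d j - d i)) * (g⁻¹).val j l := by
  obtain ⟨M, hM⟩ := hg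
  obtain ⟨Ms, hMs⟩ := hgs
  refine ⟨Ms k l - M k l, ?_⟩
  have hval : (g * transvSL i j h s).val = g.val * transvection i j s := rfl
  rw [hval] at hMs
  set G := g.val with hG
  set Gi := (g⁻¹).val with hGi
  set U := transvection i j s with hU
  set V := transvection i j (-s) with hV
  set S := Matrix.single i j (s * (d j - d i)) with hS
  set M' := (Int.castRingHom ℝ).mapMatrix M with hM'
  set Ms' := (Int.castRingHom ℝ).mapMatrix Ms with hMs'
  have hUV : U * V = 1 := by
    rw [hU, hV, transvection_mul_transvection_same i j h, add_neg_cancel, transvection_zero]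
  have hSV : S * V = S := by
    rw [hS, hV, transvection, Matrix.mul_add, Matrix.mul_one,
      Matrix.single_mul_single_of_ne _ _ _ _ h.symm, add_zero]
  have hGGi : G * Gi = 1 := val_mul_val_inv g
  have h1 : G * U * diagonal d = M' * (G * U) + G * S := by
    rw [Matrix.mul_assoc, transvection_mul_diagonal, Matrix.mul_add, ← Matrix.mul_assoc, hM,
      Matrix.mul_assoc]
  have h2 : (Ms' - M') * (G * U) = G * S := by
    rw [Matrix.sub_mul, ← hMs, h1]
    abel
  have h3 : Ms' - M' = G * S * Gi := by
    calc Ms' - M' = (Ms' - M') * (G * (U * V) * Gi) := by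
          rw [hUV, Matrix.mul_one, hGGi, Matrix.mul_one]
      _ = (Ms' - M') * (G * U) * (V * Gi) := by simp only [Matrix.mul_assoc]
      _ = G * S * (V * Gi) := by rw [h2]
      _ = G * (S * V) * Gi := by simp only [Matrix.mul_assoc]
      _ = G * S * Gi := by rw [hSV]
  have h4 := congrFun (congrFun h3 k) l
  rw [mul_single_mul_apply] at h4
  rw [← h4]
  simp [hMs', hM']

theorem interior_stableSet_eq_empty (d : Fin n → ℝ) (i j : Fin n) (hd : d i ≠ d j) :
    interior (stableSet d) = ∅ := by
  have hij : i ≠ j := fun h => hd (h ▸ rfl)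
  by_contra hne
  obtain ⟨g, hg⟩ := Set.nonempty_iff_ne_empty.mpr hne
  have hg0 : g ∈ stableSet d := interior_subset hg
  -- the path
  have hcont : Continuous fun s : ℝ => g * transvSL i j hij s :=
    continuous_const.mul (continuous_transvSL i j hij)
  have hopen : IsOpen ((fun s : ℝ => g * transvSL i j hij s) ⁻¹' interior (stableSet d)) :=
    isOpen_interior.preimage hcont
  have h0mem : (0 : ℝ) ∈ (fun s : ℝ => g * transvSL i j hij s) ⁻¹' interior (stableSet d) := by
    simp only [Set.mem_preimage, transvSL_zero, mul_one]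
    exact hg
  obtain ⟨ε, hε, hball⟩ := Metric.isOpen_iff.mp hopen 0 h0mem
  obtain ⟨k, hk⟩ := exists_col_ne_zero g i
  obtain ⟨l, hl⟩ := exists_inv_row_ne_zero g j
  set c := d j - d i with hc
  have hc0 : c ≠ 0 := sub_ne_zero.mpr (Ne.symm hd)
  set t := g.val k i * c * (g⁻¹).val j l with ht
  have ht0 : t ≠ 0 := mul_ne_zero (mul_ne_zero hk hc0) hl
  have htpos : 0 < |t| := abs_pos.mpr ht0
  set s := min (ε / 2) (1 / (2 * |t|)) with hs
  have hspos : 0 < s := lt_min (by positivity) (by positivity)
  have hsε : s < ε := lt_of_le_of_lt (min_le_left _ _) (by linarith)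
  have hsmem : s ∈ Metric.ball (0 : ℝ) ε := by
    rw [Metric.mem_ball, Real.dist_eq, sub_zero, abs_of_pos hspos]
    exact hsε
  have hgs : g * transvSL i j hij s ∈ stableSet d := interior_subset (hball hsmem)
  obtain ⟨z, hz⟩ := int_entry_of_mem_stableSet d i j hij s g hg0 hgs k l
  have hz' : (z : ℝ) = s * t := by rw [hz, ht]; ring
  have hst : |s * t| ≤ 1 / 2 := by
    rw [abs_mul, abs_of_pos hspos]
    calc s * |t| ≤ 1 / (2 * |t|) * |t| := by
          exact mul_le_mul_of_nonneg_right (min_le_right _ _) (abs_nonneg t)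
      _ = 1 / 2 := by field_simp
  have hz0 : z ≠ 0 := by
    intro h0
    rw [h0, Int.cast_zero] at hz'
    exact (mul_ne_zero hspos.ne' ht0) hz'.symm
  have hzabs : (1 : ℝ) ≤ |(z : ℝ)| := by
    have : (1 : ℤ) ≤ |z| := Int.one_le_abs hz0
    exact_mod_cast this
  rw [hz'] at hzabs
  linarith

end Vale.Agent.H2
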