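import Vale.Agent.H2.TorusCore2

open Matrix Topology MeasureTheory

namespace Vale.Agent.H2

variable {n : ℕ}

theorem stableSet_const_eq_empty (t : ℝ) (ht : ∀ k : ℤ, t ≠ k) (i0 : Fin n) :
    stableSet (fun _ : Fin n => t) = ∅ := by
  ext g
  simp only [Set.mem_empty_iff_false, iff_false]
  rintro ⟨M, hM⟩
  have h1 : g.val * diagonal (fun _ : Fin n => t) = t • g.val := by
    ext a b
    simp [Matrix.mul_diagonal, mul_comm]
  rw [h1] at hM
  have h2 : t • (1 : Matrix (Fin n) (Fin n) ℝ) = (Int.castRingHom ℝ).mapMatrix M := by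
    have := congrArg (fun X => X * (g⁻¹).val) hM
    simp only [Matrix.smul_mul, Matrix.mul_assoc, val_mul_val_inv, Matrix.mul_one] at this
    exact this
  have h3 := congrFun (congrFun h2 i0) i0
  simp at h3
  exact ht (M i0 i0) h3

theorem interior_stableSet_eq_empty' (d : Fin n → ℝ) (hd : ¬ ∃ k : ℤ, ∀ i, d i = (k : ℝ)) :
    interior (stableSet d) = ∅ := by
  by_cases hconst : ∃ i j, d i ≠ d j
  · obtain ⟨i, j, hij⟩ := hconst
    exact interior_stableSet_eq_empty d i j hij
  · push Not at hconst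
    rcases Nat.eq_zero_or_pos n with h0 | hpos
    · subst h0
      exact absurd ⟨0, fun i => i.elim0⟩ hd
    · have hdc : d = fun _ => d ⟨0, hpos⟩ := funext fun i => hconst i ⟨0, hpos⟩
      rw [hdc, stableSet_const_eq_empty (d ⟨0, hpos⟩)
        (fun k hk => hd ⟨k, fun i => (hconst i ⟨0, hpos⟩).trans hk⟩) ⟨0, hpos⟩, interior_empty]

/-- The union of the sets `stableSet d` over a finite set of diagonals. -/
def stableUnion (S : Finset (Fin n → ℝ)) : Set (Matrix.SpecialLinearGroup (Fin n) ℝ) :=
  ⋃ d ∈ S, stableSet d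

theorem isClosed_stableUnion (S : Finset (Fin n → ℝ)) : IsClosed (stableUnion S) :=
  S.finite_toSet.isClosed_biUnion fun d _ => isClosed_stableSet d

theorem interior_stableUnion (S : Finset (Fin n → ℝ))
    (hS : ∀ d ∈ S, ¬ ∃ k : ℤ, ∀ i, d i = (k : ℝ)) : interior (stableUnion S) = ∅ := by
  classical
  induction S using Finset.induction_on with
  | empty => simp [stableUnion]
  | insert a S _ ih =>
    have hU : stableUnion (insert a S) = stableUnion S ∪ stableSet a := by
      ext g
      simp [stableUnion, or_comm]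
    rw [hU, interior_union_isClosed_of_interior_empty (isClosed_stableUnion S)
      (interior_stableSet_eq_empty' a (hS a (Finset.mem_insert_self a S)))]
    exact ih fun d hd => hS d (Finset.mem_insert_of_mem hd)

theorem mul_mem_stableUnion (S : Finset (Fin n → ℝ)) {γ g : Matrix.SpecialLinearGroup (Fin n) ℝ}
    (hγ : γ ∈ intSL n) (hg : g ∈ stableUnion S) : γ * g ∈ stableUnion S := by
  simp only [stableUnion, Set.mem_iUnion] at hg ⊢
  obtain ⟨d, hd, hgd⟩ := hg
  exact ⟨d, hd, mul_mem_stableSet d hγ hgd⟩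

instance isClosed_intSL_inst (n : ℕ) :
    IsClosed (intSL n : Set (Matrix.SpecialLinearGroup (Fin n) ℝ)) := isClosed_intSL n

instance locallyCompactSpace_SL (n : ℕ) :
    LocallyCompactSpace (Matrix.SpecialLinearGroup (Fin n) ℝ) :=
  haveI : LocallyCompactSpace (Matrix (Fin n) (Fin n) ℝ) :=
    inferInstanceAs (LocallyCompactSpace (Fin n → Fin n → ℝ))
  Matrix.SpecialLinearGroup.isClosedEmbedding_val.locallyCompactSpace

instance t2Space_latticeSpace (n : ℕ) : T2Space (LatticeSpace n) :=
  t2Space_quotient_mulAction_of_properSMul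

theorem isOpenQuotientMap_mk (n : ℕ) :
    IsOpenQuotientMap (Quotient.mk (MulAction.orbitRel (intSL n) (Matrix.SpecialLinearGroup (Fin n) ℝ))) :=
  MulAction.isOpenQuotientMap_quotientMk

instance locallyCompactSpace_latticeSpace (n : ℕ) : LocallyCompactSpace (LatticeSpace n) :=
  (isOpenQuotientMap_mk n).locallyCompactSpace

/-- The image of `stableUnion S` in the quotient. -/
def badSet (S : Finset (Fin n → ℝ)) : Set (LatticeSpace n) :=
  Quotient.mk _ '' stableUnion S

theorem preimage_badSet (S : Finset (Fin n → ℝ)) :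
    Quotient.mk (MulAction.orbitRel (intSL n) (Matrix.SpecialLinearGroup (Fin n) ℝ)) ⁻¹' badSet S
      = stableUnion S := by
  ext g
  simp only [badSet, Set.mem_preimage, Set.mem_image]
  constructor
  · rintro ⟨g', hg', hgg'⟩
    have hrel : (MulAction.orbitRel (intSL n) (Matrix.SpecialLinearGroup (Fin n) ℝ)) g' g :=
      Quotient.exact hgg'
    rw [MulAction.orbitRel_apply, MulAction.mem_orbit_iff] at hrel
    obtain ⟨γ, hγ⟩ := hrel
    have : g' = (γ : Matrix.SpecialLinearGroup (Fin n) ℝ) * g := by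
      rw [← hγ]; rfl
    rw [this] at hg'
    have h2 := mul_mem_stableUnion S (inv_mem γ.2) hg'
    rwa [← mul_assoc, inv_mul_cancel, one_mul] at h2
  · intro hg
    exact ⟨g, hg, rfl⟩

theorem isClosed_badSet (S : Finset (Fin n → ℝ)) : IsClosed (badSet S) := by
  rw [← (isOpenQuotientMap_mk n).isQuotientMap.isClosed_preimage, preimage_badSet]
  exact isClosed_stableUnion S

theorem dense_compl_badSet (S : Finset (Fin n → ℝ))
    (hS : ∀ d ∈ S, ¬ ∃ k : ℤ, ∀ i, d i = (k : ℝ)) : Dense (badSet S)ᶜ := by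
  have h1 : Dense (stableUnion S)ᶜ := interior_eq_empty_iff_dense_compl.mp (interior_stableUnion S hS)
  have hq := isOpenQuotientMap_mk n
  have h2 : Dense (Quotient.mk (MulAction.orbitRel (intSL n) (Matrix.SpecialLinearGroup (Fin n) ℝ)) ''
      (stableUnion S)ᶜ) :=
    hq.surjective.denseRange.dense_image hq.continuous h1
  refine h2.mono ?_
  rintro x ⟨g, hg, rfl⟩ hx
  apply hg
  rw [← preimage_badSet S]
  exact hx

end Vale.Agent.H2
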