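import Vale.Agent.H2.TorusCore3

open Matrix Topology MeasureTheory

namespace Vale.Agent.H2

variable {n : ℕ}

theorem exists_testFunction (C : Set (LatticeSpace n)) (hC : IsClosed C) (hd : Dense Cᶜ) :
    ∃ f : LatticeSpace n → ℝ, Continuous f ∧ HasCompactSupport f ∧ (∀ x, 0 ≤ f x) ∧
      (∀ x ∈ C, f x = 0) ∧ (∃ x, f x ≠ 0) := by
  have : Nonempty (LatticeSpace n) := ⟨Quotient.mk _ 1⟩
  obtain ⟨x0, hx0⟩ := hd.nonempty
  have hdisj : Disjoint ({x0} : Set (LatticeSpace n)) C :=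
    Set.disjoint_singleton_left.mpr hx0
  obtain ⟨f, hf1, hf0, hfc, hf01⟩ :=
    exists_continuous_one_zero_of_isCompact isCompact_singleton hC hdisj
  refine ⟨f, f.continuous, hfc, fun x => (hf01 x).1, fun x hx => hf0 hx, x0, ?_⟩
  have : f x0 = 1 := hf1 (Set.mem_singleton x0)
  rw [this]
  exact one_ne_zero

theorem integral_eq_zero_of_null_compl [MeasurableSpace (LatticeSpace n)]
    (C : Set (LatticeSpace n)) (f : LatticeSpace n → ℝ) (hf0 : ∀ x ∈ C, f x = 0)
    (μ : Measure (LatticeSpace n)) (hμ : μ Cᶜ = 0) : ∫ x, f x ∂μ = 0 := by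
  apply integral_eq_zero_of_ae
  rw [Filter.EventuallyEq, ae_iff]
  refine measure_mono_null ?_ hμ
  intro x hx hxC
  exact hx (hf0 x hxC)

theorem integral_pos_of_fullSupport [MeasurableSpace (LatticeSpace n)]
    [BorelSpace (LatticeSpace n)] (f : LatticeSpace n → ℝ) (hfc : Continuous f)
    (hfs : HasCompactSupport f) (hf0 : ∀ x, 0 ≤ f x) (hfne : ∃ x, f x ≠ 0)
    (m : Measure (LatticeSpace n)) [IsFiniteMeasure m]
    (hm : ∀ U : Set (LatticeSpace n), IsOpen U → U.Nonempty → 0 < m U) :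
    0 < ∫ x, f x ∂m := by
  rw [integral_pos_iff_support_of_nonneg hf0 (hfc.integrable_of_hasCompactSupport hfs)]
  exact hm _ hfc.isOpen_support hfne

end Vale.Agent.H2
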