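import Vale.Agent.H2.TorusCore4

open Matrix Topology MeasureTheory

namespace Vale.Agent.H2

variable {n : ℕ}

/-- If the rows of `g` span (over `ℤ`) a lattice of the form `{(c σ_j(x) w_j a_j)_j : x ∈ I}`
with `θ I ⊆ I`, then `g ∈ stableSet (σ_j θ)_j`. -/
theorem mem_stableSet_of_lattice {K : Type*} [CommRing K] (θ : K) (σ : Fin n → K →+* ℝ)
    (I : AddSubgroup K) (hI : ∀ x ∈ I, θ * x ∈ I) (c : ℝ) (w a : Fin n → ℝ)
    (g : Matrix.SpecialLinearGroup (Fin n) ℝ)
    (hg : (Submodule.span ℤ (Set.range g.val.row) : Set (Fin n → ℝ))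
        = (fun (x : K) (j : Fin n) => c * σ j x * w j * a j) '' (I : Set K)) :
    g ∈ stableSet (fun j => σ j θ) := by
  have hrow : ∀ i, ∃ x ∈ I, (fun j => c * σ j x * w j * a j) = g.val.row i := by
    intro i
    have hmem : g.val.row i ∈ (Submodule.span ℤ (Set.range g.val.row) : Set (Fin n → ℝ)) :=
      Submodule.subset_span ⟨i, rfl⟩
    rw [hg] at hmem
    obtain ⟨x, hx, hxe⟩ := hmem
    exact ⟨x, hx, hxe⟩
  choose x hxI hx using hrow
  have hcomb : ∀ i, ∃ m : Fin n → ℤ,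
      ∑ k, m k • g.val.row k = (fun j => c * σ j (θ * x i) * w j * a j) := by
    intro i
    have hmem : (fun j => c * σ j (θ * x i) * w j * a j) ∈
        (Submodule.span ℤ (Set.range g.val.row) : Set (Fin n → ℝ)) := by
      rw [hg]
      exact ⟨θ * x i, hI _ (hxI i), rfl⟩
    exact (Submodule.mem_span_range_iff_exists_fun ℤ).mp hmem
  choose m hm using hcomb
  refine ⟨Matrix.of m, ?_⟩
  ext i j
  rw [Matrix.mul_diagonal, Matrix.mul_apply]
  have h1 := congrFun (hm i) j
  have h2 := congrFun (hx i) j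
  simp only [Finset.sum_apply, Pi.smul_apply, Matrix.row, map_mul] at h1 h2
  simp only [zsmul_eq_mul] at h1
  simp only [RingHom.mapMatrix_apply, Matrix.map_apply, Matrix.of_apply, eq_intCast]
  rw [h1, ← h2]
  ring

/-- The finite set of diagonals all of whose entries are real roots of `p`. -/
noncomputable def rootDiagonals (n : ℕ) (p : Polynomial ℤ) : Finset (Fin n → ℝ) :=
  Fintype.piFinset fun _ : Fin n => (p.aroots ℝ).toFinset

theorem mem_rootDiagonals {K : Type*} [CommRing K] (p : Polynomial ℤ) (hp : p ≠ 0) (θ : K)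
    (hθ : Polynomial.aeval θ p = 0) (σ : Fin n → K →+* ℝ) :
    (fun j => σ j θ) ∈ rootDiagonals n p := by
  rw [rootDiagonals, Fintype.mem_piFinset]
  intro j
  rw [Multiset.mem_toFinset, Polynomial.mem_aroots]
  refine ⟨hp, ?_⟩
  have h1 := Polynomial.aeval_algHom_apply (σ j).toIntAlgHom θ p
  rw [hθ, map_zero] at h1
  exact h1

theorem rootDiagonals_not_int (hn : 0 < n) (p : Polynomial ℤ)
    (hroot : ∀ k : ℤ, p.eval k ≠ 0) :
    ∀ d ∈ rootDiagonals n p, ¬ ∃ k : ℤ, ∀ i, d i = (k : ℝ) := by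
  intro d hd
  rintro ⟨k, hk⟩
  rw [rootDiagonals, Fintype.mem_piFinset] at hd
  have h0 := hd ⟨0, hn⟩
  rw [Multiset.mem_toFinset, Polynomial.mem_aroots'] at h0
  have h1 := h0.2
  rw [hk ⟨0, hn⟩] at h1
  have h2 : Polynomial.aeval ((k : ℤ) : ℝ) p = ((p.eval k : ℤ) : ℝ) := by
    have := Polynomial.aeval_algebraMap_apply ℝ k p
    simpa using this
  rw [h2] at h1
  exact hroot k (by exact_mod_cast h1)

end Vale.Agent.H2
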