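import Vale.Agent.H2.TorusCore5

open Matrix Topology MeasureTheory

namespace Vale.Agent.H2

/-- Main theorem (subfield obstruction). -/
theorem torus_subfield_obstruction (n : ℕ) (hn : 0 < n) (p : Polynomial ℤ) (hp : p ≠ 0)
    (hroot : ∀ k : ℤ, p.eval k ≠ 0) :
    ∃ (C : Set (LatticeSpace n)) (f : LatticeSpace n → ℝ),
      IsClosed C ∧ Dense {x | x ∉ C} ∧
      Continuous f ∧ HasCompactSupport f ∧ (∀ x, 0 ≤ f x) ∧ (∀ x ∈ C, f x = 0) ∧
      (∃ x, f x ≠ 0) ∧
      (∀ (K : Type) [Field K] (θ : K), Polynomial.aeval θ p = 0 →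
        ∀ (σ : Fin n → K →+* ℝ) (I : AddSubgroup K), (∀ x ∈ I, θ * x ∈ I) →
        ∀ (c : ℝ) (w a : Fin n → ℝ) (g : Matrix.SpecialLinearGroup (Fin n) ℝ),
          (Submodule.span ℤ (Set.range g.val.row) : Set (Fin n → ℝ))
            = (fun (x : K) (j : Fin n) => c * σ j x * w j * a j) '' (I : Set K) →
          Quotient.mk (MulAction.orbitRel (intSL n) (Matrix.SpecialLinearGroup (Fin n) ℝ)) g ∈ C) ∧
      (∀ [MeasurableSpace (LatticeSpace n)] [BorelSpace (LatticeSpace n)]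
        (μ : Measure (LatticeSpace n)), μ {x | x ∉ C} = 0 → ∫ x, f x ∂μ = 0) ∧
      (∀ [MeasurableSpace (LatticeSpace n)] [BorelSpace (LatticeSpace n)]
        (m : Measure (LatticeSpace n)) [IsFiniteMeasure m],
        (∀ U : Set (LatticeSpace n), IsOpen U → U.Nonempty → 0 < m U) → 0 < ∫ x, f x ∂m) := by
  have hS := rootDiagonals_not_int hn p hroot
  obtain ⟨f, hfc, hfs, hf0, hfC, hfne⟩ :=
    exists_testFunction (badSet (rootDiagonals n p)) (isClosed_badSet _) (dense_compl_badSet _ hS)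
  refine ⟨badSet (rootDiagonals n p), f, isClosed_badSet _, dense_compl_badSet _ hS, hfc, hfs,
    hf0, hfC, hfne, ?_, ?_, ?_⟩
  · intro K _ θ hθ σ I hI c w a g hg
    refine ⟨g, ?_, rfl⟩
    simp only [stableUnion, Set.mem_iUnion]
    exact ⟨fun j => σ j θ, mem_rootDiagonals p hp θ hθ σ, mem_stableSet_of_lattice θ σ I hI c w a g hg⟩
  · intro _ _ μ hμ
    exact integral_eq_zero_of_null_compl _ f hfC μ hμ
  · intro _ _ m _ hm
    exact integral_pos_of_fullSupport f hfc hfs hf0 hfne m hm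

end Vale.Agent.H2
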